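import Mathlib

open MeasureTheory
open scoped Classical

namespace Vale.Agent.P161

/-- The spin value `+1` or `-1` encoded by a Boolean. -/
def spin (b : Bool) : ℝ := if b then 1 else -1

/-- `ν` is the free zero-field Ising measure with parameter `θ = tanh β` on the tree `G`. -/
def IsFreeIsing {V : Type*} (G : SimpleGraph V) (θ : ℝ) (ν : Measure (V → Bool)) : Prop :=
  IsProbabilityMeasure ν ∧
    ∀ D : Finset V, (G.induce (D : Set V)).Connected → ∀ η : V → Bool,
      ν {σ | ∀ v ∈ D, σ v = η v} = ENNReal.ofReal (1 / 2 *
        ∏ e ∈ D.sym2 with e ∈ G.edgeSet, (1 + θ * (e.map fun v => spin (η v)).mul) / 2)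

/-- The law of i.i.d. Uniform`[0,1]` labels on the vertices. -/
noncomputable def iid (V : Type*) : Measure (V → unitInterval) :=
  Measure.infinitePi fun _ : V => (volume : Measure unitInterval)

end Vale.Agent.P161
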