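import Vale.Agent.P161.Post

open MeasureTheory Finset SimpleGraph
open scoped Classical ENNReal
open Vale.Agent.P143 (lam piL resample lam_ae)

namespace Vale.Agent.P161

noncomputable section

variable {V : Type*} {G : SimpleGraph V} {θ : ℝ} {D : Finset V}

section meas
variable {Ω : Type*} [MeasurableSpace Ω] {t : Ω → V × ℕ → Prop} {ξ : Ω → V × ℕ → ℝ}

lemma meas_WW' (ht : ∀ i, MeasurableSet {ω | t ω i}) (hξ : Measurable ξ) (S : Finset (V × ℕ))
    (P : Finset V) : Measurable fun ω => WW G θ D (S.filter (t ω)) (ξ ω) P := by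
  simp only [WW, prod_filter]
  exact (Finset.measurable_prod _ fun i _ => Measurable.ite (ht i)
    (((continuous_pp.measurable.comp ((measurable_pi_apply i).comp hξ)).const_mul _).const_add _)
    measurable_const).const_mul _

lemma meas_post' (ht : ∀ i, MeasurableSet {ω | t ω i}) (hξ : Measurable ξ) (S : Finset (V × ℕ))
    (o : V) : Measurable fun ω => post G θ D (S.filter (t ω)) (ξ ω) o :=
  (Finset.measurable_sum _ fun P _ => (meas_WW' ht hξ S P).mul_const _).div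
    (Finset.measurable_sum _ fun P _ => (meas_WW' ht hξ S P).mul_const _)

lemma meas_WW (S : Finset (V × ℕ)) (P : Finset V) : Measurable fun ξ => WW G θ D S ξ P := by
  simpa using meas_WW' (t := fun _ _ => True) (fun _ => by simp) measurable_id S P

lemma meas_ZZ (S : Finset (V × ℕ)) : Measurable fun ξ => ZZ G θ D S ξ :=
  Finset.measurable_sum _ fun P _ => (meas_WW S P).mul_const _

lemma meas_post (S : Finset (V × ℕ)) (o : V) : Measurable fun ξ => post G θ D S ξ o := by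
  simpa using meas_post' (t := fun _ _ => True) (fun _ => by simp) measurable_id S o

end meas

def EJ (G : SimpleGraph V) (θ : ℝ) (D : Finset V) (S : Finset (V × ℕ))
    (f : Finset V → (V × ℕ → ℝ) → ℝ≥0∞) : ℝ≥0∞ :=
  ∫⁻ ξ, ∑ P ∈ D.powerset, ENNReal.ofReal (WW G θ D S ξ P) * f P ξ ∂piL _

def mu (G : SimpleGraph V) (θ : ℝ) (D : Finset V) (S : Finset (V × ℕ)) : Measure (V × ℕ → ℝ) :=
  (piL _).withDensity fun ξ => ENNReal.ofReal (ZZ G θ D S ξ)

instance (S : Finset (V × ℕ)) : SFinite (mu G θ D S) := by unfold mu; infer_instance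

lemma mu_int (S : Finset (V × ℕ)) {g : (V × ℕ → ℝ) → ℝ≥0∞} (hg : Measurable g) :
    ∫⁻ ξ, g ξ ∂mu G θ D S = ∫⁻ ξ, ENNReal.ofReal (ZZ G θ D S ξ) * g ξ ∂piL _ :=
  lintegral_withDensity_eq_lintegral_mul _ (meas_ZZ S).ennreal_ofReal hg

lemma EJ_mono {S : Finset (V × ℕ)} {f g : Finset V → (V × ℕ → ℝ) → ℝ≥0∞}
    (h : ∀ P ξ, f P ξ ≤ g P ξ) : EJ G θ D S f ≤ EJ G θ D S g :=
  lintegral_mono fun ξ => sum_le_sum fun P _ => by gcongr; exact h P ξ

lemma EJ_add {S : Finset (V × ℕ)} {f g : Finset V → (V × ℕ → ℝ) → ℝ≥0∞}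
    (hf : ∀ P, Measurable (f P)) :
    EJ G θ D S (fun P ξ => f P ξ + g P ξ) = EJ G θ D S f + EJ G θ D S g := by
  simp only [EJ, mul_add, sum_add_distrib]
  exact lintegral_add_left
    (Finset.measurable_sum _ fun P _ => (meas_WW S P).ennreal_ofReal.mul (hf P)) _

lemma EJ_mul {S : Finset (V × ℕ)} {f : Finset V → (V × ℕ → ℝ) → ℝ≥0∞} {c : ℝ≥0∞} (hc : c ≠ ∞) :
    EJ G θ D S (fun P ξ => c * f P ξ) = c * EJ G θ D S f := by
  simp only [EJ, mul_left_comm _ c, ← mul_sum]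
  exact lintegral_const_mul' _ _ hc

section pos
variable (h0 : 0 ≤ θ) (h1 : θ < 1)
include h0 h1

lemma EJ_ofReal (S : Finset (V × ℕ)) {f : Finset V → (V × ℕ → ℝ) → ℝ} (hf : ∀ P ξ, 0 ≤ f P ξ) :
    EJ G θ D S (fun P ξ => ENNReal.ofReal (f P ξ)) =
      ∫⁻ ξ, ENNReal.ofReal (av G θ D S ξ fun P => f P ξ) ∂piL _ := by
  refine lintegral_congr fun ξ => ?_
  rw [av, ENNReal.ofReal_sum_of_nonneg fun P _ => mul_nonneg (WW_pos h0 h1 S ξ P).le (hf P ξ)]
  exact sum_congr rfl fun P _ => (ENNReal.ofReal_mul (WW_pos h0 h1 S ξ P).le).symm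

lemma EJ_mu (S : Finset (V × ℕ)) {g : (V × ℕ → ℝ) → ℝ≥0∞} (hg : Measurable g) :
    EJ G θ D S (fun _ => g) = ∫⁻ ξ, g ξ ∂mu G θ D S := by
  rw [mu_int S hg]
  refine lintegral_congr fun ξ => ?_
  simp only [ZZ, av, mul_one]
  rw [ENNReal.ofReal_sum_of_nonneg fun P _ => (WW_pos h0 h1 S ξ P).le, sum_mul]

lemma EJ_sub {T S : Finset (V × ℕ)} (hTS : T ⊆ S) {f : Finset V → (V × ℕ → ℝ) → ℝ≥0∞}
    (mf : ∀ P, Measurable (f P))
    (hf : ∀ P ξ ξ', (∀ i, (i ∈ S → i ∈ T) → ξ i = ξ' i) → f P ξ = f P ξ') :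
    EJ G θ D S f = EJ G θ D T f := by
  have hd : ∀ i ∈ S \ T, i ∈ S ∧ i ∉ T := fun i hi => mem_sdiff.1 hi
  conv_lhs => rw [← sdiff_union_of_subset hTS]
  generalize S \ T = S' at hd
  induction S' using Finset.induction_on with
  | empty => simp
  | insert i S' hi' ih =>
    have hi2 := hd i (mem_insert_self _ _)
    have hi : i ∉ S' ∪ T := by simp [hi', hi2.2]
    rw [← ih fun j hj => hd j (mem_insert_of_mem hj), insert_union]
    generalize S' ∪ T = S at hi
    rw [EJ, resample i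
      (Finset.measurable_sum _ fun P _ => (meas_WW _ P).ennreal_ofReal.fun_mul (mf P))]
    refine lintegral_congr fun ξ => ?_
    have : ∀ u P, ENNReal.ofReal (WW G θ D (insert i S) (Function.update ξ i u) P) *
        f P (Function.update ξ i u) = ENNReal.ofReal (WW G θ D S ξ P) * f P ξ *
          ENNReal.ofReal (1 + sg P i.1 * pp u) := fun u P => by
      rw [WW_insert hi, Function.update_self, ENNReal.ofReal_mul (WW_pos h0 h1 _ _ _).le,
        WW_local (ξ' := ξ) fun j hj => Function.update_of_ne (by rintro rfl; exact hi hj) _ _,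
        hf P _ ξ fun j hj => Function.update_of_ne (by rintro rfl; exact hi2.2 (hj hi2.1)) _ _]
      ring
    have m : ∀ P, Measurable fun u => ENNReal.ofReal (1 + sg P i.1 * pp u) := fun P =>
      ((continuous_pp.measurable.const_mul _).const_add _).ennreal_ofReal
    simp only [this]
    rw [lintegral_finset_sum _ fun P _ => (m P).const_mul _]
    refine sum_congr rfl fun P _ => ?_
    rw [lintegral_const_mul _ (m P), int_one (sg_mem _ _), mul_one]

lemma mu_sub {T S : Finset (V × ℕ)} (hTS : T ⊆ S) {g : (V × ℕ → ℝ) → ℝ≥0∞}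
    (mg : Measurable g) (hg : ∀ ξ ξ', (∀ i, (i ∈ S → i ∈ T) → ξ i = ξ' i) → g ξ = g ξ') :
    ∫⁻ ξ, g ξ ∂mu G θ D S = ∫⁻ ξ, g ξ ∂mu G θ D T := by
  rw [← EJ_mu h0 h1 _ mg, ← EJ_mu h0 h1 _ mg, EJ_sub h0 h1 hTS (fun _ => mg) fun _ => hg]

lemma EJ_const (S : Finset (V × ℕ)) {f : Finset V → ℝ} (hf : ∀ P, 0 ≤ f P) :
    EJ G θ D S (fun P _ => ENNReal.ofReal (f P)) =
      ENNReal.ofReal (∑ P ∈ D.powerset, wt G θ D P * f P) := by
  rw [EJ_sub h0 h1 (empty_subset S) (fun _ => measurable_const) (fun _ _ _ _ => rfl),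
    EJ_ofReal h0 h1 _ fun P _ => hf P]
  simp [av, WW]

lemma mu_prob (hT : G.IsTree) (hD : Conn G D) (hne : D.Nonempty) (S : Finset (V × ℕ)) :
    IsProbabilityMeasure (mu G θ D S) := by
  obtain ⟨o, ho⟩ := hne
  have h2 := EJ_const (G := G) (D := D) h0 h1 S (f := fun _ => 1) fun _ => zero_le_one
  rw [EJ_mu h0 h1 S measurable_const, marg_one hT θ hD ho fun _ => 1] at h2
  exact ⟨by simpa using h2⟩

end pos

def aa (i : V × ℕ) : ℝ := 1 / (i.2 + 1)

def tm (U : V × ℕ → ℝ) (i : V × ℕ) : ℝ := aa i * U i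

def up (S : Finset (V × ℕ)) (U : V × ℕ → ℝ) (r : ℝ) : Finset (V × ℕ) := S.filter fun j => r < tm U j

def vv (G : SimpleGraph V) (θ : ℝ) (D : Finset V) (S : Finset (V × ℕ)) (U ξ : V × ℕ → ℝ)
    (i : V × ℕ) : ℝ :=
  if i ∈ S then FF (post G θ D (up S U (tm U i)) ξ i.1) (clp 0 1 (ξ i)) else ξ i

section meas
variable {Ω : Type*} [MeasurableSpace Ω] {U ξ : Ω → V × ℕ → ℝ} {r : Ω → ℝ}

lemma meas_tm (hU : Measurable U) (i : V × ℕ) : Measurable fun ω => tm (U ω) i :=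
  ((measurable_pi_apply i).comp hU).const_mul _

lemma meas_pu (hU : Measurable U) (hξ : Measurable ξ) (hr : Measurable r) (S : Finset (V × ℕ))
    (o : V) : Measurable fun ω => post G θ D (up S (U ω) (r ω)) (ξ ω) o :=
  meas_post' (fun i => measurableSet_lt hr (meas_tm hU i)) hξ S o

lemma meas_vv (hU : Measurable U) (hξ : Measurable ξ) (S : Finset (V × ℕ)) :
    Measurable fun ω => vv G θ D S (U ω) (ξ ω) := by
  refine measurable_pi_lambda _ fun i => ?_
  unfold vv FF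
  have h1 := meas_pu (G := G) (θ := θ) (D := D) hU hξ (meas_tm hU i) S i.1
  have h2 := (continuous_clp 0 1).measurable.comp ((measurable_pi_apply i).comp hξ)
  split_ifs
  · exact h2.add ((h1.mul ((h2.pow_const 2).sub h2)).div_const 2)
  · exact (measurable_pi_apply i).comp hξ

end meas

lemma up_anti (S : Finset (V × ℕ)) (U : V × ℕ → ℝ) {r s : ℝ} (h : r ≤ s) : up S U s ⊆ up S U r :=
  fun _ hj => mem_filter.2 ⟨(mem_filter.1 hj).1, h.trans_lt (mem_filter.1 hj).2⟩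

/-- `U'` has the same past as `U` at level `r` -/
def Same (U U' : V × ℕ → ℝ) (r : ℝ) : Prop :=
  ∀ j, tm U j = tm U' j ∨ (tm U j ≤ r ∧ tm U' j ≤ r)

lemma Same.mono {U U' : V × ℕ → ℝ} {r s : ℝ} (h : Same U U' r) (hs : r ≤ s) :
    Same U U' s := fun j => (h j).imp id fun h => ⟨h.1.trans hs, h.2.trans hs⟩

lemma Same.up {U U' : V × ℕ → ℝ} {r : ℝ} (h : Same U U' r) (S : Finset (V × ℕ)) :
    up S U r = up S U' r := filter_congr fun j _ => by
  rcases h j with h | h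
  · rw [h]
  · simp [h.1.not_gt, h.2.not_gt]

lemma Same.tm {U U' : V × ℕ → ℝ} {r : ℝ} (h : Same U U' r) {j : V × ℕ}
    (hj : r < tm U j) : tm U j = tm U' j :=
  (h j).elim id fun h => absurd hj h.1.not_gt

def Ag (U : V × ℕ → ℝ) (r : ℝ) (ξ ξ' : V × ℕ → ℝ) : Prop := ∀ j, r < tm U j → ξ j = ξ' j

lemma Ag.mono {U ξ ξ' : V × ℕ → ℝ} {r s : ℝ} (h : Ag U r ξ ξ') (hs : r ≤ s) : Ag U s ξ ξ' :=
  fun j hj => h j (hs.trans_lt hj)

lemma Ag.post {U ξ ξ' : V × ℕ → ℝ} {r : ℝ} (h : Ag U r ξ ξ') (S : Finset (V × ℕ)) :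
    post G θ D (up S U r) ξ = post G θ D (up S U r) ξ' :=
  post_local fun i hi => h i (mem_filter.1 hi).2

lemma vv_local {S : Finset (V × ℕ)} {U U' ξ ξ' : V × ℕ → ℝ} {r : ℝ} (hU : Same U U' r)
    (h : Ag U r ξ ξ') : Ag U r (vv G θ D S U ξ) (vv G θ D S U' ξ') := by
  intro j hj
  unfold vv
  rw [← hU.tm hj, ← (hU.mono hj.le).up, h j hj, (h.mono hj.le).post]

lemma same_refl (U : V × ℕ → ℝ) (r : ℝ) : Same U U r := fun _ => Or.inl rfl

section pos
variable (h0 : 0 ≤ θ) (h1 : θ < 1) {S : Finset (V × ℕ)} {U : V × ℕ → ℝ}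
include h0 h1

lemma gg_vv {i : V × ℕ} (hi : i ∈ S) (ξ : V × ℕ → ℝ) :
    gg (post G θ D (up S U (tm U i)) ξ i.1) (vv G θ D S U ξ i) =
      GG (post G θ D (up S U (tm U i)) ξ i.1) (ξ i) := by
  rw [vv, if_pos hi, gg_FF (post_mem h0 h1 _ _ _) (clp_mem zero_le_one _)]
  simp only [GG, pp, clp_eq (clp_mem zero_le_one (ξ i))]

theorem unif {i : V × ℕ} (hi : i ∈ S) {Ψ : (V × ℕ → ℝ) × ℝ → ℝ≥0∞} (mΨ : Measurable Ψ)
    (hΨ : ∀ ξ ξ' v, Ag U (tm U i) ξ ξ' → Ψ (ξ, v) = Ψ (ξ', v)) :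
    ∫⁻ ξ, Ψ (ξ, vv G θ D S U ξ i) ∂mu G θ D S = ∫⁻ ξ, ∫⁻ v, Ψ (ξ, v) ∂lam ∂mu G θ D S := by
  have hiT : i ∉ up S U (tm U i) := fun h => lt_irrefl _ (mem_filter.1 h).2
  have m1 : Measurable fun ξ => Ψ (ξ, vv G θ D S U ξ i) :=
    mΨ.comp (measurable_id.prodMk ((measurable_pi_apply i).comp
      (meas_vv measurable_const measurable_id S)))
  have hup : ∀ (ξ : V × ℕ → ℝ) (u : ℝ), Ag U (tm U i) (Function.update ξ i u) ξ :=
    fun ξ u j hj => Function.update_of_ne (by rintro rfl; exact lt_irrefl _ hj) _ _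
  rw [mu_sub h0 h1 (T := insert i (up S U (tm U i))) (insert_subset hi (filter_subset _ _)) m1,
    mu_sub h0 h1 (T := up S U (tm U i)) (filter_subset _ _) mΨ.lintegral_prod_right'
      fun ξ ξ' h => lintegral_congr fun v => hΨ _ _ _ fun j hj =>
        h j fun hS => mem_filter.2 ⟨hS, hj⟩,
    mu_int _ m1, mu_int _ mΨ.lintegral_prod_right',
    resample i ((meas_ZZ _).ennreal_ofReal.fun_mul m1)]
  · refine lintegral_congr fun ξ => ?_
    rw [← change_FF (post_mem (G := G) (D := D) h0 h1 (up S U (tm U i)) ξ i.1) fun v => Ψ (ξ, v),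
      ← lintegral_const_mul' _ _ ENNReal.ofReal_ne_top]
    refine lintegral_congr_ae ?_
    filter_upwards [lam_ae] with u hu
    rw [ZZ_insert h0 h1 hiT, ENNReal.ofReal_mul (ZZ_pos h0 h1 _ _).le, vv, if_pos hi,
      Function.update_self, clp_eq ⟨hu.1.le, hu.2.le⟩, (hup ξ u).post, hΨ _ _ _ (hup ξ u),
      mul_assoc]
    simp only [ZZ, av, WW_local (T := up S U (tm U i)) fun j hj => hup ξ u j (mem_filter.1 hj).2]
  · intro ξ ξ' h
    have h' : Ag U (tm U i) ξ ξ' := fun j hj =>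
      h j fun hS => mem_insert_of_mem (mem_filter.2 ⟨hS, hj⟩)
    simp only [vv, hi, if_true]
    rw [hΨ _ _ _ h', h'.post, h i fun _ => mem_insert_self _ _]

omit h0 h1 in
theorem unif' {i : V × ℕ} (hi : i ∉ S) {Ψ : (V × ℕ → ℝ) × ℝ → ℝ≥0∞} (mΨ : Measurable Ψ)
    (hΨ : ∀ ξ u v, Ψ (Function.update ξ i u, v) = Ψ (ξ, v)) :
    ∫⁻ ξ, Ψ (ξ, vv G θ D S U ξ i) ∂mu G θ D S = ∫⁻ ξ, ∫⁻ v, Ψ (ξ, v) ∂lam ∂mu G θ D S := by
  have m1 : Measurable fun ξ => Ψ (ξ, vv G θ D S U ξ i) :=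
    mΨ.comp (measurable_id.prodMk ((measurable_pi_apply i).comp
      (meas_vv measurable_const measurable_id S)))
  rw [mu_int _ m1, mu_int _ mΨ.lintegral_prod_right',
    resample i ((meas_ZZ _).ennreal_ofReal.fun_mul m1)]
  refine lintegral_congr fun ξ => ?_
  rw [← lintegral_const_mul' _ _ ENNReal.ofReal_ne_top]
  refine lintegral_congr fun u => ?_
  rw [vv, if_neg hi, Function.update_self, hΨ]
  simp only [ZZ, av, WW_local (ξ := Function.update ξ i u) (ξ' := ξ) (T := S)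
    fun j hj => Function.update_of_ne (by rintro rfl; exact hi hj) _ _]

theorem vv_iid [IsProbabilityMeasure (mu G θ D S)]
    (hinj : Function.Injective (tm U)) : (mu G θ D S).map (vv G θ D S U) = piL _ := by
  have mv : Measurable (vv G θ D S U) := meas_vv measurable_const measurable_id S
  refine Measure.eq_infinitePi _ fun s t ht => ?_
  rw [Measure.map_apply mv (.pi s.countable_toSet fun _ _ => ht _)]
  induction s using Finset.induction_on_min_value (tm U) with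
  | empty => simp
  | insert e s he hmin ih =>
    have ms : MeasurableSet (vv G θ D S U ⁻¹' (s : Set _).pi t) :=
      mv (.pi s.countable_toSet fun _ _ => ht _)
    have mΨ : Measurable (((vv G θ D S U ⁻¹' (s : Set _).pi t) ×ˢ t e).indicator
      (1 : (V × ℕ → ℝ) × ℝ → ℝ≥0∞)) := measurable_one.indicator (ms.prod (ht e))
    have : ∫⁻ ξ, ((vv G θ D S U ⁻¹' (s : Set _).pi t) ×ˢ t e).indicator (1 : (V × ℕ → ℝ) × ℝ → ℝ≥0∞)
        (ξ, vv G θ D S U ξ e) ∂mu G θ D S = ∫⁻ ξ, ∫⁻ v,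
        ((vv G θ D S U ⁻¹' (s : Set _).pi t) ×ˢ t e).indicator 1 (ξ, v) ∂lam ∂mu G θ D S := by
      have key : ∀ ξ ξ' v, (∀ f ∈ s, vv G θ D S U ξ f = vv G θ D S U ξ' f) →
          ((vv G θ D S U ⁻¹' (s : Set _).pi t) ×ˢ t e).indicator (1 : (V × ℕ → ℝ) × ℝ → ℝ≥0∞) (ξ, v) =
          ((vv G θ D S U ⁻¹' (s : Set _).pi t) ×ˢ t e).indicator 1 (ξ', v) := by
        intro ξ ξ' v this
        simp only [Set.indicator, Set.mem_preimage, Set.mem_prod, Set.mem_pi, Finset.mem_coe]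
        exact if_congr (and_congr_left' (forall₂_congr fun f hf => by rw [this f hf])) rfl rfl
      by_cases heS : e ∈ S
      · exact unif h0 h1 heS mΨ fun ξ ξ' v h => key _ _ _ fun f hf =>
          vv_local (same_refl _ _) h f (lt_of_le_of_ne (hmin f hf) fun h' => by
            rw [hinj h'] at he; exact he hf)
      · refine unif' heS mΨ fun ξ u v => key _ _ _ fun f hf => ?_
        unfold vv
        rw [Function.update_of_ne (by rintro rfl; exact he hf), post_local (ξ' := ξ)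
          fun j hj => Function.update_of_ne (by rintro rfl; exact heS (mem_filter.1 hj).1) _ _]
    rw [Finset.prod_insert he, ← ih, ← lintegral_indicator_one ms,
      ← lintegral_indicator_one (mv (.pi (insert e s).countable_toSet fun _ _ => ht _)),
      ← lintegral_const_mul _ (measurable_one.indicator ms)]
    refine Eq.trans (lintegral_congr fun ρ => ?_) (this.trans (lintegral_congr fun ρ => ?_))
    · simp only [Set.indicator, Set.mem_preimage, Set.mem_prod, Finset.coe_insert,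
        Set.insert_pi, Set.mem_inter_iff, and_comm]
      rfl
    · simp only [Set.indicator_prod_one]
      rw [lintegral_const_mul _ (measurable_one.indicator (ht e)), lintegral_indicator_one (ht e),
        mul_comm]

theorem orth (hinj : Function.Injective (tm U)) {h : V × ℕ → (V × ℕ → ℝ) × ℝ → ℝ}
    (mh : ∀ i, Measurable (h i)) {B : V × ℕ → (V × ℕ → ℝ) → ℝ} (mB : ∀ i, Measurable (B i))
    (hl : ∀ i ξ ξ' v, Ag U (tm U i) ξ ξ' → h i (ξ, v) = h i (ξ', v))
    (hB : ∀ i ξ v, |h i (ξ, v)| ≤ B i ξ) (hz : ∀ i ξ, ∫ v, h i (ξ, v) ∂lam = 0)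
    (A : Finset (V × ℕ)) (hA : A ⊆ S) :
    ∫⁻ ξ, ENNReal.ofReal ((∑ i ∈ A, h i (ξ, vv G θ D S U ξ i)) ^ 2) ∂mu G θ D S ≤
      ∑ i ∈ A, ∫⁻ ξ, ENNReal.ofReal (B i ξ ^ 2) ∂mu G θ D S := by
  have mv : Measurable (vv G θ D S U) := meas_vv measurable_const measurable_id S
  induction A using Finset.induction_on_min_value (tm U) with
  | empty => simp
  | insert e s he hmin ih =>
    have hs : ∀ f ∈ s, tm U e < tm U f := fun f hf => lt_of_le_of_ne (hmin f hf) fun h' => by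
      rw [hinj h'] at he; exact he hf
    have ms : Measurable fun ξ => ∑ i ∈ s, h i (ξ, vv G θ D S U ξ i) :=
      Finset.measurable_sum _ fun i _ =>
        (mh i).comp (measurable_id.prodMk ((measurable_pi_apply i).comp mv))
    have := unif (G := G) (D := D) (U := U) h0 h1 (hA (mem_insert_self e s))
      (Ψ := fun z => ENNReal.ofReal ((h e z + ∑ i ∈ s, h i (z.1, vv G θ D S U z.1 i)) ^ 2))
      (((mh e).add (ms.comp measurable_fst)).pow_const 2).ennreal_ofReal fun ξ ξ' v hh => by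
        simp only
        rw [hl e ξ ξ' v hh, sum_congr rfl fun i hi => by
          rw [vv_local (same_refl _ _) hh i (hs i hi), hl i ξ ξ' _ (hh.mono (hmin i hi))]]
    simp only [sum_insert he]
    refine (this.le.trans (lintegral_mono fun ξ => int_sq (h := fun v => h e (ξ, v))
      ((mh e).comp measurable_prodMk_left) (hB e ξ) (hz e ξ)
        (∑ i ∈ s, h i (ξ, vv G θ D S U ξ i)))).trans ?_
    rw [lintegral_add_left ((mB e).pow_const 2).ennreal_ofReal]
    gcongr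
    exact ih ((subset_insert _ _).trans hA)

omit h0 h1 in
lemma int_prod {g : ℝ → ℝ≥0∞} (hg : Measurable g) (A : Finset (V × ℕ)) :
    ∫⁻ ξ, ∏ i ∈ A, g (ξ i) ∂piL (V × ℕ) = (∫⁻ x, g x ∂lam) ^ A.card := by
  induction A using Finset.induction_on with
  | empty => simp
  | insert i A hi ih =>
    have m : ∀ A : Finset (V × ℕ), Measurable fun ξ : V × ℕ → ℝ => ∏ i ∈ A, g (ξ i) := fun A =>
      Finset.measurable_prod _ fun j _ => hg.comp (measurable_pi_apply j)
    rw [resample i (m _), card_insert_of_notMem hi, pow_succ, ← ih, ← lintegral_mul_const _ (m _)]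
    refine lintegral_congr fun ξ => ?_
    rw [← lintegral_const_mul _ hg]
    refine lintegral_congr fun u => ?_
    rw [prod_insert hi, Function.update_self, mul_comm, prod_congr rfl fun j hj => by
      rw [Function.update_of_ne (by rintro rfl; exact hi hj)]]

theorem mse (hT : G.IsTree) (hD : Conn G D) {o : V} (ho : o ∈ D) {T A : Finset (V × ℕ)}
    (hTS : T ⊆ S) (hA : A ⊆ T) (hAo : ∀ i ∈ A, i.1 = o) :
    EJ G θ D S (fun P ξ => ENNReal.ofReal ((post G θ D T ξ o - sg P o) ^ 2)) ≤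
      4 * ENNReal.ofReal (23 / 24) ^ A.card := by
  let c : (V × ℕ → ℝ) → ℝ := fun ξ =>
    if ∏ i ∈ A, (1 + -1 * pp (ξ i)) ≤ ∏ i ∈ A, (1 + 1 * pp (ξ i)) then 1 else -1
  have mp : ∀ s : ℝ, Measurable fun ξ : V × ℕ → ℝ => ∏ i ∈ A, (1 + s * pp (ξ i)) := fun s =>
    Finset.measurable_prod _ fun i _ =>
      ((continuous_pp.measurable.comp (measurable_pi_apply i)).const_mul _).const_add _
  have mc : Measurable c :=
    Measurable.ite (measurableSet_le (mp _) (mp _)) measurable_const measurable_const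
  have mg : Measurable fun x => ENNReal.ofReal (1 - pp x ^ 2 / 2) :=
    (((continuous_pp.measurable.pow_const 2).div_const 2).const_sub 1).ennreal_ofReal
  rw [EJ_sub h0 h1 hTS (fun P => (((meas_post T o).sub_const _).pow_const 2).ennreal_ofReal)
    fun P ξ ξ' h => by rw [post_local fun i hi => h i fun _ => hi], EJ_ofReal h0 h1 _ fun _ _ => sq_nonneg _]
  refine (lintegral_mono fun ξ => ENNReal.ofReal_le_ofReal (post_opt h0 h1 T ξ o (c ξ))).trans ?_
  rw [← EJ_ofReal h0 h1 (f := fun P ξ => (c ξ - sg P o) ^ 2) _ fun _ _ => sq_nonneg _,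
    EJ_sub h0 h1 hA (fun P => ((mc.sub_const _).pow_const 2).ennreal_ofReal)
    fun P ξ ξ' h => by
      simp only [c]
      rw [prod_congr rfl fun i hi => by rw [h i fun _ => hi],
        prod_congr (s₂ := A) (f := fun i => 1 + 1 * pp (ξ i)) rfl fun i hi => by
          rw [h i fun _ => hi]],
    EJ_ofReal h0 h1 _ fun _ _ => sq_nonneg _, ← int_hell, ← int_prod mg,
    ← lintegral_const_mul' _ _ (by simp)]
  refine lintegral_mono fun ξ => ?_
  have hp : ∀ i, 0 ≤ 1 - pp (ξ i) ^ 2 / 2 := fun i => by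
    nlinarith [abs_le.1 (pp_abs (ξ i))]
  rw [← ENNReal.ofReal_prod_of_nonneg fun i _ => hp i, ← ENNReal.ofReal_ofNat,
    ← ENNReal.ofReal_mul (by norm_num)]
  refine ENNReal.ofReal_le_ofReal ?_
  have e : av G θ D A ξ (fun P => (c ξ - sg P o) ^ 2) = ∑ P ∈ D.powerset, wt G θ D P *
      (fun s => (∏ i ∈ A, (1 + s * pp (ξ i))) * (c ξ - s) ^ 2) (sg P o) := by
    refine sum_congr rfl fun P _ => ?_
    rw [WW, mul_assoc, prod_congr rfl fun i hi => by rw [hAo i hi]]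
  rw [e, marg_one hT θ hD ho fun s => (∏ i ∈ A, (1 + s * pp (ξ i))) * (c ξ - s) ^ 2]
  have p1 : ∀ s ∈ Set.Icc (-1 : ℝ) 1, 0 < ∏ i ∈ A, (1 + s * pp (ξ i)) := fun s hs =>
    prod_pos fun i _ => by linarith [one_add_ge hs (pp_abs (ξ i))]
  have p2 := p1 1 (by norm_num)
  have p3 := p1 (-1) (by norm_num)
  have p4 : 0 ≤ ∏ i ∈ A, (1 - pp (ξ i) ^ 2 / 2) := prod_nonneg fun i _ => hp i
  have p5 : (∏ i ∈ A, (1 + -1 * pp (ξ i))) * ∏ i ∈ A, (1 + 1 * pp (ξ i)) ≤
      (∏ i ∈ A, (1 - pp (ξ i) ^ 2 / 2)) ^ 2 := by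
    rw [← prod_mul_distrib, ← prod_pow]
    exact prod_le_prod (fun i _ => by nlinarith [abs_le.1 (pp_abs (ξ i))])
      fun i _ => by nlinarith [sq_nonneg (pp (ξ i) ^ 2)]
  simp only [c]
  split_ifs with hc
  · have := (pow_le_pow_iff_left₀ p3.le p4 two_ne_zero).1 (le_trans (by nlinarith) p5)
    linarith
  · have := (pow_le_pow_iff_left₀ p2.le p4 two_ne_zero).1 (le_trans (by nlinarith) p5)
    linarith

end pos

end

end Vale.Agent.P161
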