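import Vale.Agent.P161.Picard

open MeasureTheory Finset SimpleGraph Filter Topology
open scoped Classical ENNReal
open Vale.Agent.P143 (lam piL resample lam_ae piL_ae piL_inj ne1 meas_ne1 meas_decide sp meas_sp
  map_sp piL_pair)

namespace Vale.Agent.P161

noncomputable section

variable {V : Type*} {G : SimpleGraph V} {θ θ' L : ℝ} {R : ℝ → ℝ → ℝ} {D : Finset V} {d : ℕ}
  {H : Reg G d}

abbrev LL (V : Type*) := (V × ℕ → ℝ) × (V × ℕ → ℝ)

def EE (G : SimpleGraph V) (θ : ℝ) (D : Finset V) (S : Finset (V × ℕ))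
    (f : Finset V → LL V → ℝ≥0∞) : ℝ≥0∞ :=
  ∫⁻ U, EJ G θ D S (fun P ξ => f P (U, vv G θ D S U ξ)) ∂piL _

section EE
variable {S : Finset (V × ℕ)} {f g : Finset V → LL V → ℝ≥0∞}

lemma EE_mono (h : ∀ P z, f P z ≤ g P z) : EE G θ D S f ≤ EE G θ D S g :=
  lintegral_mono fun _ => EJ_mono fun _ _ => h _ _

lemma EE_add (hf : ∀ P, Measurable (f P)) :
    EE G θ D S (fun P z => f P z + g P z) = EE G θ D S f + EE G θ D S g := by
  have mv : Measurable fun z : LL V => (z.1, vv G θ D S z.1 z.2) :=
    measurable_fst.prodMk (meas_vv measurable_fst measurable_snd S)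
  unfold EE
  rw [← lintegral_add_left]
  · exact lintegral_congr fun U => EJ_add fun P => (hf P).comp (mv.comp measurable_prodMk_left)
  · exact Measurable.lintegral_prod_right' (f := fun z : LL V => ∑ P ∈ D.powerset,
      ENNReal.ofReal (WW G θ D S z.2 P) * f P (z.1, vv G θ D S z.1 z.2))
      (Finset.measurable_sum _ fun P _ =>
        ((meas_WW S P).comp measurable_snd).ennreal_ofReal.mul ((hf P).comp mv))

lemma EE_sum {κ : Type*} (s : Finset κ) {f : κ → Finset V → LL V → ℝ≥0∞}
    (hf : ∀ k P, Measurable (f k P)) :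
    EE G θ D S (fun P z => ∑ k ∈ s, f k P z) = ∑ k ∈ s, EE G θ D S (f k) := by
  induction s using Finset.induction_on with
  | empty => simp [EE, EJ]
  | insert k s hk ih => simp only [sum_insert hk]; rw [EE_add (hf k), ih]

lemma EE_prod [Countable V] (hR : RF θ θ' L R) (hT : G.IsTree) (hD : Conn G D) (hne : D.Nonempty)
    {F : LL V → ℝ≥0∞} (hF : Measurable F) :
    EE G θ D S (fun _ => F) = ∫⁻ z, F z ∂(piL _).prod (piL _) := by
  have := mu_prob hR.h0 hR.h1 hT hD hne S
  rw [lintegral_prod _ hF.aemeasurable]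
  refine lintegral_congr_ae ((piL_inj aa_ne).mono fun U hU => ?_)
  have mv : Measurable (vv G θ D S U) := meas_vv measurable_const measurable_id S
  have m : Measurable fun y => F (U, y) := hF.comp measurable_prodMk_left
  simp only
  rw [← vv_iid (G := G) (D := D) (S := S) (U := U) hR.h0 hR.h1 hU, lintegral_map m mv,
    EJ_mu hR.h0 hR.h1 S (g := fun ξ => F (U, vv G θ D S U ξ)) (m.comp mv)]

end EE

def Ps (H : Reg G d) (R : ℝ → ℝ → ℝ) (N n : ℕ) (z : LL V) (v : V) : Bool :=
  decide (0 < mp H R N n n z.1 z.2 (1 / N) v)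

lemma meas_Ps (hR : RF θ θ' L R) (N n : ℕ) (v : V) : Measurable fun z => Ps H R N n z v :=
  meas_decide (measurableSet_lt measurable_const
    (meas_mp hR measurable_fst measurable_snd n measurable_const v))

lemma late (i : V × ℕ) {r : ℝ} :
    ∫⁻ U, (if tm U i ≤ r then 1 else 0) ∂piL (V × ℕ) ≤ ENNReal.ofReal (r * (i.2 + 1)) := by
  rw [resample i (f := fun U => if tm U i ≤ r then 1 else 0)
    (Measurable.ite (measurableSet_le (meas_tm measurable_id i) measurable_const)
    measurable_const measurable_const)]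
  refine (lintegral_mono (g := fun _ => ENNReal.ofReal (r * (i.2 + 1))) fun U => ?_).trans (by simp)
  calc _ ≤ ∫⁻ u, (Set.Ioc 0 (r * (i.2 + 1))).indicator 1 u ∂lam := by
        refine lintegral_mono_ae (lam_ae.mono fun u hu => ?_)
        have : tm (Function.update U i u) i = aa i * u := by rw [tm, Function.update_self]
        simp only [this]
        split_ifs with h
        · rw [aa, div_mul_eq_mul_div, div_le_iff₀ (by positivity), one_mul] at h
          rw [Set.indicator_of_mem (by exact ⟨hu.1, h⟩)]; rfl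
        · exact zero_le
    _ ≤ _ := by
        rw [lintegral_indicator_one measurableSet_Ioc]
        exact (Measure.restrict_apply_le _ _).trans (by simp)

theorem approx [Countable V] (hR : RF θ θ' L R) {K : ℝ} (hK0 : 0 ≤ K)
    (hK : ∀ o X, ∑ v ∈ X, ((dd H.tree o v : ℝ) + 1) ^ 2 * (θ' ^ dd H.tree o v) ^ 2 ≤ K)
    {ε : ℝ} (hε : 0 < ε) : ∃ N n : ℕ, ∀ D, Conn G D → ∀ N', N ≤ N' → ∀ o, bl H (n * n) o ⊆ D →
      EE G θ D (D ×ˢ range N') (fun P z => ne1 (Ps H R N n z o) (decide (o ∈ P))) ≤
        ENNReal.ofReal ε := by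
  obtain ⟨M, hM⟩ := exists_pow_lt_of_lt_one (x := ε / 24) (y := 23 / 24) (by positivity) (by norm_num)
  obtain ⟨N, hN⟩ := exists_nat_gt (24 * M ^ 2 / ε + M : ℝ)
  have hM0 : (0 : ℝ) ≤ 24 * M ^ 2 / ε := by positivity
  have hMN : M ≤ N := by exact_mod_cast (by linarith : (M : ℝ) ≤ N)
  have hN0 : (0 : ℝ) < N := lt_of_le_of_lt (by positivity) hN
  have hN1 : (1 : ℝ) ≤ N := by exact_mod_cast (by exact_mod_cast hN0 : 0 < N)
  obtain ⟨lm, hl⟩ : ∃ lm, lm = 2 * (N ^ 2 * K * (2 * L + 9) ^ 2) + 1 := ⟨_, rfl⟩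
  have hl0 : 0 < lm := by rw [hl]; positivity
  have ht : Tendsto (fun n : ℕ => ((1 / 2 : ℝ) ^ n + 2 * (N * K / (n + 1) ^ 2)) * Real.exp lm)
      atTop (𝓝 ((0 + 2 * 0) * Real.exp lm)) :=
    ((tendsto_pow_atTop_nhds_zero_of_lt_one (by norm_num) (by norm_num)).add
      ((tendsto_const_nhds.div_atTop ((tendsto_pow_atTop two_ne_zero).comp
        (tendsto_atTop_add_const_right _ _ tendsto_natCast_atTop_atTop))).const_mul 2)).mul_const _
  obtain ⟨n, hn⟩ := (ht.eventually (gt_mem_nhds (a := ε / 6) (by simp; positivity))).exists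
  refine ⟨N, n, fun D hD N' hN' o ho => ?_⟩
  have hoD : o ∈ D := ho ((mem_bl H).2 (by simp [dd_self]))
  have h2 := step2 hR hD hN' hK hl0 (by linarith) n ho (r := 1 / N) (by positivity)
    (by rw [mul_one_div_cancel hN0.ne']) (by rw [div_le_one hN0]; exact hN1)
  obtain ⟨S, hS⟩ : ∃ S, S = D ×ˢ range N' := ⟨_, rfl⟩
  rw [← hS] at h2 ⊢
  have mi : ∀ k, Measurable fun U : V × ℕ → ℝ =>
      if tm U (o, k) ≤ 1 / N then (1 : ℝ≥0∞) else 0 := fun k =>
    Measurable.ite (measurableSet_le (meas_tm measurable_id _) measurable_const)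
      measurable_const measurable_const
  calc _ ≤ ∫⁻ U, 2 * er H θ R N n D S n U (1 / N) o + 2 * (4 * ENNReal.ofReal (23 / 24) ^ M +
        4 * ∑ k ∈ range M, if tm U (o, k) ≤ 1 / N then 1 else 0) ∂piL _ := by
        refine lintegral_mono fun U => ?_
        have m1 : Measurable fun ξ => ENNReal.ofReal ((mp H R N n n U (vv G θ D S U ξ) (1 / N) o -
            post G θ D (up S U (1 / N)) ξ o) ^ 2) :=
          (((meas_mp hR measurable_const (meas_vv measurable_const measurable_id S) n
            measurable_const o).fun_sub (meas_post _ o)).pow_const 2).ennreal_ofReal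
        refine (EJ_mono (g := fun P ξ => 2 * ENNReal.ofReal ((mp H R N n n U (vv G θ D S U ξ)
          (1 / N) o - post G θ D (up S U (1 / N)) ξ o) ^ 2) +
          2 * ENNReal.ofReal ((post G θ D (up S U (1 / N)) ξ o - sg P o) ^ 2)) fun P ξ => ?_).trans ?_
        · unfold ne1 Ps sg
          simp only
          generalize mp H R N n n U (vv G θ D S U ξ) (1 / N) o = x
          generalize post G θ D (up S U (1 / N)) ξ o = y
          rw [← mul_add, ← ENNReal.ofReal_add (sq_nonneg _) (sq_nonneg _), ← ENNReal.ofReal_ofNat,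
            ← ENNReal.ofReal_mul (by norm_num)]
          split_ifs with h1 h2
          all_goals first | exact zero_le | skip
          · have h1 : x ≤ 0 := by simp_all
            rw [ENNReal.one_le_ofReal]; nlinarith [sq_nonneg (x - 2 * y + 1)]
          · have h1 : 0 < x := by simp_all
            rw [ENNReal.one_le_ofReal]; nlinarith [sq_nonneg (x - 2 * y - 1)]
        · rw [EJ_add fun _ => m1.const_mul _, EJ_mul (by simp), EJ_mul (by simp),
            EJ_mu hR.h0 hR.h1 S m1, er]
          gcongr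
          by_cases h : ∀ k ∈ range M, 1 / N < tm U (o, k)
          · refine le_add_right ((mse hR.h0 hR.h1 H.tree hD hoD (filter_subset _ _)
              (A := {o} ×ˢ range M) (fun i hi => ?_)
              fun i hi => by simpa using (mem_product.1 hi).1).trans (by simp))
            simp only [mem_product, mem_singleton] at hi
            obtain ⟨v, k⟩ := i
            obtain ⟨rfl, hk⟩ := hi
            refine mem_filter.2 ⟨?_, h k hk⟩
            simp only [hS, mem_product, mem_range] at hk ⊢
            exact ⟨hoD, by omega⟩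
          · push Not at h
            obtain ⟨k, hk, h⟩ := h
            refine le_add_left ((mse hR.h0 hR.h1 H.tree hD hoD (filter_subset _ _) (A := ∅)
              (empty_subset _) (by simp)).trans ?_)
            rw [card_empty, pow_zero]
            gcongr
            refine le_trans ?_ (single_le_sum (fun _ _ => zero_le) hk)
            rw [if_pos h]
    _ ≤ 2 * ENNReal.ofReal (ε / 6) + 2 * (4 * ENNReal.ofReal (ε / 24) +
        4 * ENNReal.ofReal (ε / 24)) := by
        rw [lintegral_add_right _ ((((Finset.measurable_sum _ fun k _ => mi k).const_mul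
          _).const_add _).const_mul _), lintegral_const_mul' _ _ (by simp),
          lintegral_const_mul' _ _ (by simp), lintegral_add_left measurable_const,
          lintegral_const_mul' 4 (fun U => ∑ k ∈ range M, _) (by simp),
          lintegral_finsetSum _ fun k _ => mi k, lintegral_const, measure_univ, mul_one]
        gcongr
        · refine h2.trans (ENNReal.ofReal_le_ofReal (le_trans ?_ hn.le))
          exact mul_le_of_le_one_right (by positivity)
            (Real.exp_le_one_iff.2 (by rw [neg_mul, neg_nonpos]; positivity))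
        · rw [← ENNReal.ofReal_pow (by norm_num)]
          exact ENNReal.ofReal_le_ofReal hM.le
        · refine (sum_le_card_nsmul _ _ (ENNReal.ofReal (1 / N * M)) fun k hk =>
            (late (o, k)).trans (ENNReal.ofReal_le_ofReal ?_)).trans ?_
          · gcongr
            exact_mod_cast mem_range.1 hk
          · rw [card_range, nsmul_eq_mul, ← ENNReal.ofReal_natCast,
              ← ENNReal.ofReal_mul (by positivity)]
            refine ENNReal.ofReal_le_ofReal ?_
            have : 24 * (M : ℝ) ^ 2 / ε ≤ N := by linarith [(by positivity : (0 : ℝ) ≤ M)]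
            rw [div_le_iff₀ hε] at this
            rw [show (M : ℝ) * (1 / N * M) = M ^ 2 / N by ring, div_le_div_iff₀ hN0 (by norm_num)]
            linarith
    _ = _ := by
        rw [← ENNReal.ofReal_ofNat 2, ← ENNReal.ofReal_ofNat 4,
          ← ENNReal.ofReal_mul (by norm_num), ← ENNReal.ofReal_mul (by norm_num),
          ← ENNReal.ofReal_add (by positivity) (by positivity), ← ENNReal.ofReal_mul (by norm_num),
          ← ENNReal.ofReal_add (by positivity) (by positivity)]
        congr 1; ring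

lemma conn_bl (n : ℕ) (o : V) : Conn G (bl H n o) := by
  intro u hu v hv
  refine ⟨(pth H.tree o u).reverse.append (pth H.tree o v), fun z hz => ?_⟩
  rw [Walk.mem_support_append_iff, Walk.support_reverse, List.mem_reverse] at hz
  rw [mem_bl] at hu hv ⊢
  exact hz.elim (fun h => (dd_supp _ h).trans hu) fun h => (dd_supp _ h).trans hv

lemma ne1_tri (a b c : Bool) : ne1 a c ≤ ne1 a b + ne1 c b := by
  cases a <;> cases b <;> cases c <;> simp [ne1]

lemma ind_le {D0 : Finset V} (a b η : V → Bool) : (if ∀ v ∈ D0, a v = η v then (1 : ℝ≥0∞) else 0) ≤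
    (if ∀ v ∈ D0, b v = η v then 1 else 0) + ∑ v ∈ D0, ne1 (a v) (b v) := by
  split_ifs with h1 h2
  · exact le_self_add
  · push Not at h2
    obtain ⟨v, hv, h2⟩ := h2
    refine le_add_left (le_trans ?_ (single_le_sum (fun _ _ => zero_le) hv))
    rw [ne1, if_neg (by rw [h1 v hv]; exact h2.symm)]
  · exact zero_le
  · exact zero_le

lemma ne1_comm (a b : Bool) : ne1 a b = ne1 b a := by simp [ne1, eq_comm]

def Ph (H : Reg G d) (R : ℝ → ℝ → ℝ) (N n : ℕ → ℕ) (z : LL V) (v : V) : Bool :=
  decide (∀ᶠ j in atTop, Ps H R (N j) (n j) z v = true)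

lemma meas_Ph (hR : RF θ θ' L R) (N n : ℕ → ℕ) (v : V) : Measurable fun z => Ph H R N n z v := by
  refine meas_decide ?_
  simp only [eventually_atTop, Set.ofPred_exists, Set.ofPred_forall]
  exact .iUnion fun a => .iInter fun b => .iInter fun _ =>
    meas_Ps hR _ _ v (measurableSet_singleton true)

lemma Ph_le (N n : ℕ → ℕ) (z : LL V) (v : V) (j : ℕ) :
    ne1 (Ph H R N n z v) (Ps H R (N j) (n j) z v) ≤
      ∑' i, ne1 (Ps H R (N (j + i)) (n (j + i)) z v) (Ps H R (N (j + i + 1)) (n (j + i + 1)) z v) := by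
  by_cases h : ∀ i, Ps H R (N (j + i)) (n (j + i)) z v = Ps H R (N (j + i + 1)) (n (j + i + 1)) z v
  · have h1 : ∀ i, j ≤ i → Ps H R (N i) (n i) z v = Ps H R (N j) (n j) z v := by
      intro i hi
      induction i, hi using Nat.le_induction with
      | base => rfl
      | succ i hi ih =>
        obtain ⟨k, rfl⟩ := Nat.exists_eq_add_of_le hi
        rw [← h, ih]
    have : Ph H R N n z v = Ps H R (N j) (n j) z v := by
      rw [Ph, eventually_congr ((eventually_ge_atTop j).mono fun i hi => by rw [h1 i hi]),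
        eventually_const]
      simp
    simp [ne1, this]
  · push Not at h
    obtain ⟨i, hi⟩ := h
    refine le_trans ?_ (ENNReal.le_tsum i)
    rw [ne1, ne1, if_neg hi]
    split_ifs <;> simp

theorem law_Ph [Countable V] (hR : RF θ θ' L R) {N n : ℕ → ℕ}
    (hN : ∀ j D, Conn G D → ∀ N', N j ≤ N' → ∀ o, bl H (n j * n j) o ⊆ D →
      EE G θ D (D ×ˢ range N') (fun P z => ne1 (Ps H R (N j) (n j) z o) (decide (o ∈ P))) ≤
        ENNReal.ofReal ((1 / 2) ^ j)) {D0 : Finset V} (h0 : Conn G D0) (hne : D0.Nonempty)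
    (η : V → Bool) : ∫⁻ z, (if ∀ v ∈ D0, Ph H R N n z v = η v then 1 else 0) ∂(piL _).prod (piL _) =
      ENNReal.ofReal (wt G θ D0 (D0.filter fun v => η v = true)) := by
  have mn : ∀ j v (P : Finset V), Measurable fun z =>
      ne1 (Ps H R (N j) (n j) z v) (decide (v ∈ P)) := fun j v P =>
    meas_ne1 (meas_Ps hR _ _ v) measurable_const
  have a1 : ∀ j v, ∫⁻ z, ne1 (Ps H R (N j) (n j) z v) (Ps H R (N (j + 1)) (n (j + 1)) z v)
      ∂(piL _).prod (piL _) ≤ ENNReal.ofReal (2 * (1 / 2) ^ j) := by
    intro j v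
    have hc := conn_bl (H := H) (n j * n j + n (j + 1) * n (j + 1)) v
    rw [← EE_prod hR H.tree hc ⟨v, (mem_bl H).2 (by simp [dd_self])⟩
      (S := bl H (n j * n j + n (j + 1) * n (j + 1)) v ×ˢ range (N j + N (j + 1)))
      (meas_ne1 (meas_Ps hR _ _ v) (meas_Ps hR _ _ v))]
    refine (EE_mono fun P z => ne1_tri _ (decide (v ∈ P)) _).trans ?_
    rw [EE_add (mn j v)]
    refine (add_le_add (hN j _ hc _ (by omega) v fun x hx => ?_)
      (hN (j + 1) _ hc _ (by omega) v fun x hx => ?_)).trans ?_
    · rw [mem_bl] at hx ⊢; omega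
    · rw [mem_bl] at hx ⊢; omega
    · rw [← ENNReal.ofReal_add (by positivity) (by positivity)]
      refine ENNReal.ofReal_le_ofReal ?_
      rw [pow_succ]
      linarith [(by positivity : (0 : ℝ) < (1 / 2) ^ j)]
  have a2 : ∀ j v, ∫⁻ z, ne1 (Ph H R N n z v) (Ps H R (N j) (n j) z v) ∂(piL _).prod (piL _) ≤
      ENNReal.ofReal (4 * (1 / 2) ^ j) := by
    intro j v
    refine (lintegral_mono fun z => Ph_le N n z v j).trans ?_
    rw [lintegral_tsum fun i => (meas_ne1 (meas_Ps hR _ _ v) (meas_Ps hR _ _ v)).aemeasurable]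
    refine (ENNReal.tsum_le_tsum fun i => a1 (j + i) v).trans (le_of_eq ?_)
    have := (hasSum_geometric_two.mul_left ((1 / 2) ^ j)).mul_left 2
    simp only [← pow_add] at this
    rw [← ENNReal.ofReal_tsum_of_nonneg (fun _ => by positivity) this.summable, this.tsum_eq]
    congr 1; ring
  have mE : Measurable fun z : LL V => if ∀ v ∈ D0, Ph H R N n z v = η v then (1 : ℝ≥0∞) else 0 := by
    refine Measurable.ite ?_ measurable_const measurable_const
    simp only [Set.ofPred_forall]
    exact .iInter fun v => .iInter fun _ => meas_Ph hR N n v (measurableSet_singleton _)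
  have key : ∀ j, ∃ D S, Conn G D ∧ D0 ⊆ D ∧
      EE G θ D S (fun P z => ∑ v ∈ D0, ne1 (Ph H R N n z v) (decide (v ∈ P))) ≤
        ENNReal.ofReal (D0.card * (5 * (1 / 2) ^ j)) := by
    intro j
    obtain ⟨o, ho⟩ := hne
    have hc := conn_bl (H := H) (D0.sup (dd H.tree o) + n j * n j) o
    refine ⟨_, bl H (D0.sup (dd H.tree o) + n j * n j) o ×ˢ range (N j), hc, fun v hv =>
      (mem_bl H).2 (le_add_right (le_sup (f := dd H.tree o) hv)), ?_⟩
    rw [EE_sum _ fun v P => meas_ne1 (meas_Ph hR N n v) measurable_const]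
    refine (sum_le_card_nsmul _ _ (ENNReal.ofReal (5 * (1 / 2) ^ j)) fun v hv => ?_).trans ?_
    · refine (EE_mono fun P z => (ne1_tri _ (Ps H R (N j) (n j) z v) _).trans
        (add_le_add_right (ne1_comm _ _).le _)).trans ?_
      rw [EE_add fun _ => meas_ne1 (meas_Ph hR N n v) (meas_Ps hR _ _ v),
        EE_prod hR H.tree hc ⟨o, (mem_bl H).2 (by simp [dd_self])⟩
          (meas_ne1 (meas_Ph hR N n v) (meas_Ps hR _ _ v))]
      refine (add_le_add (a2 j v) (hN j _ hc _ le_rfl v fun x hx => ?_)).trans ?_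
      · rw [mem_bl] at hx ⊢
        have := dd_tri H.tree o v x
        have := le_sup (f := dd H.tree o) hv
        omega
      · rw [← ENNReal.ofReal_add (by positivity) (by positivity)]
        exact ENNReal.ofReal_le_ofReal (le_of_eq (by ring))
    · rw [nsmul_eq_mul, ← ENNReal.ofReal_natCast, ← ENNReal.ofReal_mul (by positivity)]
  have lim : ∀ a b : ℝ≥0∞, (∀ j, a ≤ b + ENNReal.ofReal (D0.card * (5 * (1 / 2) ^ j))) → a ≤ b := by
    intro a b h
    have := (ENNReal.tendsto_ofReal (((tendsto_pow_atTop_nhds_zero_of_lt_one (r := (1 / 2 : ℝ))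
      (by norm_num) (by norm_num)).const_mul 5).const_mul (D0.card : ℝ))).const_add b
    simpa using ge_of_tendsto' this h
  have e2 : ∀ D S, Conn G D → D0 ⊆ D → EE G θ D S
      (fun P _ => if ∀ v ∈ D0, decide (v ∈ P) = η v then 1 else 0) =
      ENNReal.ofReal (wt G θ D0 (D0.filter fun v => η v = true)) := by
    intro D S hD hs
    have := EJ_const (G := G) (D := D) hR.h0 hR.h1 S
      (f := fun P => if ∀ v ∈ D0, decide (v ∈ P) = η v then 1 else 0)
      fun P => by split_ifs <;> simp
    simp only [apply_ite ENNReal.ofReal, ENNReal.ofReal_one, ENNReal.ofReal_zero] at this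
    rw [EE, this, lintegral_const, measure_univ, mul_one, marg H.tree θ hD h0 hne hs
      fun P Q h => if_congr (forall₂_congr fun v hv => by simp only [h v hv]) rfl rfl,
      sum_eq_single_of_mem (D0.filter fun v => η v = true)
        (mem_powerset.2 (filter_subset _ _)) fun P hP hne => ?_, if_pos, mul_one]
    · intro v hv
      simp [hv]
    · rw [if_neg, mul_zero]
      intro h
      apply hne
      ext v
      rw [mem_filter]
      exact ⟨fun hv => ⟨mem_powerset.1 hP hv, by rw [← h v (mem_powerset.1 hP hv)]; simpa⟩,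
        fun hv => by simpa [hv.2] using h v hv.1⟩
  refine le_antisymm (lim _ _ fun j => ?_) (lim _ _ fun j => ?_)
  · obtain ⟨D, S, hD, hs, h⟩ := key j
    rw [← EE_prod hR H.tree hD (hne.mono hs) (S := S) mE, ← e2 D S hD hs]
    refine (EE_mono fun P z => ind_le _ (fun v => decide (v ∈ P)) η).trans ?_
    rw [EE_add fun _ => measurable_const]
    gcongr
  · obtain ⟨D, S, hD, hs, h⟩ := key j
    rw [← EE_prod hR H.tree hD (hne.mono hs) (S := S) mE, ← e2 D S hD hs]
    refine (EE_mono fun P z => ind_le _ (Ph H R N n z) η).trans ?_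
    rw [EE_add fun _ => mE]
    simp only [ne1_comm (decide _)]
    gcongr

def lab (U : V → unitInterval) : LL V :=
  (fun p => sp (U p.1) (2 * p.2), fun p => sp (U p.1) (2 * p.2 + 1))

lemma meas_lab : Measurable (lab : (V → unitInterval) → LL V) := by
  have h : ∀ v n, Measurable fun U : V → unitInterval => sp (U v) n :=
    fun v n => (measurable_pi_apply n).comp (meas_sp.comp (by fun_prop))
  exact (measurable_pi_lambda _ fun q => h _ _).prodMk (measurable_pi_lambda _ fun q => h _ _)

lemma law_lab : (iid V).map lab = (piL (V × ℕ)).prod (piL (V × ℕ)) := by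
  have h1 : (iid V).map (fun U v => sp (U v)) = Measure.infinitePi fun _ : V => piL ℕ := by
    rw [iid, Measure.infinitePi_map_pi _ fun _ => meas_sp]
    simp only [map_sp]
  have h2 := Measure.infinitePi_map_curry_symm (fun (_ : V) (_ : ℕ) => lam)
  have h3 := piL_pair (f := fun p : V × ℕ => (p.1, 2 * p.2))
    (g := fun p : V × ℕ => (p.1, 2 * p.2 + 1)) (by
    rintro (e | e) (e' | e') h <;>
      simp only [Sum.elim_inl, Sum.elim_inr, Prod.mk.injEq] at h
    · rw [Prod.ext h.1 (by omega)]
    · omega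
    · omega
    · rw [Prod.ext h.1 (by omega)])
  have m1 : Measurable fun (U : V → unitInterval) v => sp (U v) :=
    measurable_pi_lambda _ fun v => meas_sp.comp (measurable_pi_apply v)
  rw [← h3, piL, ← h2]
  change _ = ((Measure.infinitePi fun _ : V => piL ℕ).map _).map _
  rw [← h1, Measure.map_map (MeasurableEquiv.measurable _) m1,
    Measure.map_map (by fun_prop) ((MeasurableEquiv.measurable _).comp m1)]
  rfl

theorem main (H : Reg G d) (h0 : 0 ≤ θ) (h1 : ((d : ℝ) - 1) * θ ^ 2 < 1) :
    ∃ Φ : (V → unitInterval) → V → Bool, Measurable Φ ∧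
      (∀ (g : G ≃g G) (U : V → unitInterval),
        Φ (fun v => U (g.symm v)) = fun v => Φ U (g.symm v)) ∧
      IsFreeIsing G θ ((iid V).map Φ) := by
  have : Countable V := P143.countable_of_good ⟨H.tree.connected, nb_fin H.hd H.hN⟩
  have hd : (3 : ℝ) ≤ d := by exact_mod_cast H.hd
  obtain ⟨θ', a1, a2, a3⟩ : ∃ θ', θ ≤ θ' ∧ 0 < θ' ∧ ((d : ℝ) - 1) * θ' ^ 2 < 1 := by
    rcases eq_or_lt_of_le h0 with rfl | h
    · refine ⟨1 / d, by positivity, by positivity, ?_⟩
      rw [div_pow, mul_div_assoc', div_lt_one (by positivity)]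
      nlinarith
    · exact ⟨θ, le_rfl, h, h1⟩
  obtain ⟨L, R, hR⟩ := exists_RF h0 (by nlinarith) a1 a2
  have hs : Summable fun n : ℕ => (2 * ((d : ℝ) - 1) ^ n) * (((n : ℝ) + 1) ^ 2 * (θ' ^ n) ^ 2) := by
    have hq : ‖((d : ℝ) - 1) * θ' ^ 2‖ < 1 := by
      rwa [Real.norm_of_nonneg (mul_nonneg (by linarith) (sq_nonneg _))]
    have := (((summable_pow_mul_geometric_of_norm_lt_one 2 hq).add
      ((summable_pow_mul_geometric_of_norm_lt_one 1 hq).mul_left 2)).add
      (summable_pow_mul_geometric_of_norm_lt_one 0 hq)).mul_left 2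
    refine this.congr fun n => ?_
    rw [mul_pow]; ring
  have hK := fun o X => sum_dd H.tree H.hd H.hN o X
    (g := fun n => ((n : ℝ) + 1) ^ 2 * (θ' ^ n) ^ 2) (fun _ => by positivity) hs
  obtain ⟨o⟩ := H.tree.connected.nonempty
  choose N n hN using fun j : ℕ => approx (H := H) hR (by simpa using hK o ∅) hK
    (ε := (1 / 2) ^ j) (by positivity)
  have mP : Measurable (Ph H R N n) := measurable_pi_lambda _ (meas_Ph hR N n)
  have : IsProbabilityMeasure (iid V) := by unfold iid; infer_instance
  refine ⟨fun U => Ph H R N n (lab U), mP.comp meas_lab, fun g U => ?_,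
    Measure.isProbabilityMeasure_map (mP.comp meas_lab).aemeasurable, fun D0 hD0 η => ?_⟩
  · funext v
    have : ∀ j, Ps H R (N j) (n j) (lab fun v => U (g.symm v)) v =
        Ps H R (N j) (n j) (lab U) (g.symm v) := fun j => by
      simp only [Ps, ← mp_map g.symm]
      rfl
    simp only [Ph, this]
  · have hc : Conn G D0 := fun u hu v hv => by
      obtain ⟨p⟩ := hD0 ⟨u, hu⟩ ⟨v, hv⟩
      refine ⟨p.map (Embedding.induce (D0 : Set V)).toHom, fun x hx => ?_⟩
      obtain ⟨y, -, rfl⟩ := List.mem_map.1 ((Walk.support_map _ p).symm ▸ hx)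
      exact y.2
    obtain ⟨⟨v0, hv0⟩⟩ := hD0.nonempty
    have ms : MeasurableSet {s : V → Bool | ∀ v ∈ D0, s v = η v} := by
      simp only [Set.ofPred_forall]
      exact .iInter fun v => .iInter fun _ => measurable_pi_apply v (measurableSet_singleton _)
    change (Measure.map (Ph H R N n ∘ lab) _) _ = _
    rw [← Measure.map_map mP meas_lab, law_lab, Measure.map_apply mP ms,
      ← lintegral_indicator_one (mP ms)]
    refine Eq.trans (lintegral_congr fun z => ?_) ((law_Ph hR hN hc ⟨v0, hv0⟩ η).trans ?_)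
    · simp only [Set.indicator, Set.mem_preimage, Set.mem_ofPred_eq, Pi.one_apply]
    · unfold wt ED
      congr 2
      refine prod_congr rfl fun e he => ?_
      have he := mem_sym2_iff.1 (mem_filter.1 he).1
      induction e with
      | h x y =>
      simp [ew, sg, spin, he x (by simp), he y (by simp)]

end

end Vale.Agent.P161
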