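import Vale.Agent.P161.Joint

open MeasureTheory Finset SimpleGraph
open scoped Classical ENNReal
open Vale.Agent.P143 (lam piL resample lam_ae time_le piL_ae piL_inj)

namespace Vale.Agent.P161

noncomputable section

variable {V : Type*} {G : SimpleGraph V} {θ θ' L : ℝ} {R : ℝ → ℝ → ℝ} {D : Finset V} {d : ℕ}

structure Reg (G : SimpleGraph V) (d : ℕ) : Prop where
  tree : G.IsTree
  hd : 3 ≤ d
  hN : ∀ v, (G.neighborSet v).ncard = d

def bl (H : Reg G d) (ρ : ℕ) (o : V) : Finset V := (ball_fin H.tree H.hd H.hN o ρ).toFinset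

lemma mem_bl (H : Reg G d) {ρ : ℕ} {o v : V} : v ∈ bl H ρ o ↔ dd H.tree o v ≤ ρ := by simp [bl]

def mp (H : Reg G d) (R : ℝ → ℝ → ℝ) (N ρ : ℕ) : ℕ → (V × ℕ → ℝ) → (V × ℕ → ℝ) → ℝ → V → ℝ
  | 0, _, _, _, _ => 0
  | n + 1, U, Y, r, o => clp (-1) 1 (∑ i ∈ up (bl H ρ o ×ˢ range N) U r,
      Cw R (mp H R N ρ n U Y (tm U i)) (pth H.tree o i.1) *
        gg (mp H R N ρ n U Y (tm U i) i.1) (Y i))

variable {H : Reg G d} {N ρ : ℕ}

lemma mp_mem (n : ℕ) (U Y : V × ℕ → ℝ) (r : ℝ) (o : V) :
    mp H R N ρ n U Y r o ∈ Set.Icc (-1 : ℝ) 1 := by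
  cases n with
  | zero => simp [mp]
  | succ n => exact clp_mem (by norm_num) _

lemma meas_mp (hR : RF θ θ' L R) {Ω : Type*} [MeasurableSpace Ω] {U Y : Ω → V × ℕ → ℝ}
    (hU : Measurable U) (hY : Measurable Y) (n : ℕ) {r : Ω → ℝ} (hr : Measurable r) (o : V) :
    Measurable fun ω => mp H R N ρ n (U ω) (Y ω) (r ω) o := by
  induction n generalizing r o with
  | zero => exact measurable_const
  | succ n ih =>
    simp only [mp, up, sum_filter]
    exact (continuous_clp _ _).measurable.comp (Finset.measurable_sum _ fun i _ =>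
      Measurable.ite (measurableSet_lt hr (meas_tm hU i))
        ((meas_Cw hR (fun v => ih (meas_tm hU i) v) _).mul
          (meas_gg.comp (f := fun ω => (mp H R N ρ n (U ω) (Y ω) (tm (U ω) i) i.1, Y ω i))
            ((ih (meas_tm hU i) _).prodMk ((measurable_pi_apply i).comp hY)))) measurable_const)

lemma mp_local {U U' Y Y' : V × ℕ → ℝ} (n : ℕ) {r : ℝ} (hU : Same U U' r) (hY : Ag U r Y Y') :
    mp H R N ρ n U Y r = mp H R N ρ n U' Y' r := by
  induction n generalizing r with
  | zero => rfl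
  | succ n ih =>
    funext o
    simp only [mp]
    rw [← hU.up]
    congr 1
    refine sum_congr rfl fun i hi => ?_
    have h := (mem_filter.1 hi).2
    rw [← hU.tm h, ih (hU.mono h.le) (hY.mono h.le), hY i h]

lemma mp_map (g : G ≃g G) (n : ℕ) (U Y : V × ℕ → ℝ) (r : ℝ) (o : V) :
    mp H R N ρ n (fun i => U (g i.1, i.2)) (fun i => Y (g i.1, i.2)) r o =
      mp H R N ρ n U Y r (g o) := by
  induction n generalizing r o with
  | zero => rfl
  | succ n ih =>
    simp only [mp]
    congr 1
    refine sum_equiv (g.toEquiv.prodCongr (Equiv.refl ℕ)) (fun i => ?_) fun i _ => ?_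
    · simp only [up, mem_filter, mem_product, mem_bl]
      rw [← dd_map H.tree g o i.1]
      rfl
    · have := pth_map H.tree g o i.1
      have e : tm (fun i => U (g i.1, i.2)) i = tm U (g i.1, i.2) := rfl
      rw [funext (ih _), e]
      change _ = Cw R _ (pth H.tree (g o) (g i.1)) * _
      rw [← this, Cw_map]
      rfl

def er (H : Reg G d) (θ : ℝ) (R : ℝ → ℝ → ℝ) (N ρ : ℕ) (D : Finset V) (S : Finset (V × ℕ)) (n : ℕ)
    (U : V × ℕ → ℝ) (r : ℝ) (o : V) : ℝ≥0∞ :=
  ∫⁻ ξ, ENNReal.ofReal ((mp H R N ρ n U (vv G θ D S U ξ) r o - post G θ D (up S U r) ξ o) ^ 2)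
    ∂mu G θ D S

lemma meas_er (hR : RF θ θ' L R) (S : Finset (V × ℕ)) (n : ℕ) (o : V) :
    Measurable fun z : (V × ℕ → ℝ) × ℝ => er H θ R N ρ D S n z.1 z.2 o :=
  Measurable.lintegral_prod_right' (f := fun z : ((V × ℕ → ℝ) × ℝ) × (V × ℕ → ℝ) =>
    ENNReal.ofReal ((mp H R N ρ n z.1.1 (vv G θ D S z.1.1 z.2) z.1.2 o -
      post G θ D (up S z.1.1 z.1.2) z.2 o) ^ 2))
    (((meas_mp hR (by fun_prop) (meas_vv (by fun_prop) measurable_snd S) n (by fun_prop) o).sub
      (meas_pu (by fun_prop) measurable_snd (by fun_prop) S o)).pow_const 2).ennreal_ofReal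

lemma er_local (S : Finset (V × ℕ)) (n : ℕ) (o : V) {U U' : V × ℕ → ℝ} {r : ℝ} (h : Same U U' r) :
    er H θ R N ρ D S n U r o = er H θ R N ρ D S n U' r o := by
  refine lintegral_congr fun ξ => ?_
  rw [mp_local n h (vv_local h fun _ _ => rfl), h.up]

lemma inc_bound (hR : RF θ θ' L R) {m m' : V → ℝ} (hm : ∀ v, m v ∈ Set.Icc (-1 : ℝ) 1)
    (hm' : ∀ v, m' v ∈ Set.Icc (-1 : ℝ) 1) {a u : V} {p : G.Walk a u} (hp : p.IsPath) (y : ℝ) :
    |Cw R m p * gg (m u) y - Cw R m' p * gg (m' u) y| ≤
      θ' ^ p.length * (2 * L + 9) * ∑ x ∈ p.support.toFinset, |m x - m' x| := by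
  have h1 := Cw_lip hR hm hm' p
  rw [← List.sum_toFinset _ hp.support_nodup] at h1
  have h2 := Cw_abs hR hm' p
  have h3 := gg_abs (hm u) y
  have h4 := gg_lip (hm u) (hm' u) y
  have h5 : |m u - m' u| ≤ ∑ x ∈ p.support.toFinset, |m x - m' x| :=
    single_le_sum (f := fun x => |m x - m' x|) (fun _ _ => abs_nonneg _) (by simp)
  have h6 : 0 ≤ θ' ^ p.length * L := mul_nonneg (pow_pos hR.pos _).le (by linarith [hR.two])
  rw [show Cw R m p * gg (m u) y - Cw R m' p * gg (m' u) y = (Cw R m p - Cw R m' p) * gg (m u) y +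
    Cw R m' p * (gg (m u) y - gg (m' u) y) by ring]
  refine (abs_add_le _ _).trans ?_
  rw [abs_mul, abs_mul]
  have h7 := mul_le_mul h2 (h4.trans (mul_le_mul_of_nonneg_left h5 (by norm_num)))
    (abs_nonneg _) (pow_pos hR.pos _).le
  have h8 := mul_le_of_le_one_right (abs_nonneg (Cw R m p - Cw R m' p)) h3
  nlinarith [mul_nonneg h6 (abs_nonneg (m a - m' a))]

theorem step1 (hR : RF θ θ' L R) (hD : Conn G D) {N' : ℕ} (hN : N ≤ N') {U : V × ℕ → ℝ}
    (hinj : Function.Injective (tm U)) (hU : ∀ i, U i < 1) {r : ℝ} (hr0 : 0 < r) (hr : 1 ≤ N * r)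
    {o : V} (ho : bl H ρ o ⊆ D) (n : ℕ) :
    er H θ R N ρ D (D ×ˢ range N') (n + 1) U r o ≤ ∑ i ∈ D ×ˢ range N, if r < tm U i then
      (if i.1 ∈ bl H ρ o then
        ENNReal.ofReal ((θ' ^ dd H.tree o i.1 * (2 * L + 9)) ^ 2 * (dd H.tree o i.1 + 1)) *
        ∑ u ∈ (pth H.tree o i.1).support.toFinset, er H θ R N ρ D (D ×ˢ range N') n U (tm U i) u
      else ENNReal.ofReal ((θ' ^ dd H.tree o i.1) ^ 2)) else 0 := by
  have hoD : o ∈ D := ho ((mem_bl H).2 (by simp [dd_self]))
  obtain ⟨S, hS⟩ : ∃ S, S = D ×ˢ range N' := ⟨_, rfl⟩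
  rw [← hS]
  have := mu_prob hR.h0 hR.h1 H.tree hD ⟨o, hoD⟩ S
  have mv : Measurable (vv G θ D S U) := meas_vv measurable_const measurable_id S
  let q : V × ℕ → (V × ℕ → ℝ) → V → ℝ := fun i ξ => mp H R N ρ n U (vv G θ D S U ξ) (tm U i)
  let m : V × ℕ → (V × ℕ → ℝ) → V → ℝ := fun i ξ => post G θ D (up S U (tm U i)) ξ
  have mq : ∀ i v, Measurable fun ξ => q i ξ v := fun i v =>
    meas_mp hR measurable_const mv n measurable_const v
  have mm : ∀ i v, Measurable fun ξ => m i ξ v := fun i v => meas_post _ v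
  have iq : ∀ i ξ v, q i ξ v ∈ Set.Icc (-1 : ℝ) 1 := fun i ξ v => mp_mem _ _ _ _ _
  have im : ∀ i ξ v, m i ξ v ∈ Set.Icc (-1 : ℝ) 1 := fun i ξ v => post_mem hR.h0 hR.h1 _ _ _
  have mt : ∀ (i : V × ℕ) (q : (V × ℕ → ℝ) → V → ℝ), (∀ v, Measurable fun ξ => q ξ v) →
      Measurable fun z : (V × ℕ → ℝ) × ℝ => Cw R (q z.1) (pth H.tree o i.1) * gg (q z.1 i.1) z.2 :=
    fun i q hq => (meas_Cw hR (fun v => (hq v).comp measurable_fst) _).mul
      (meas_gg.comp (f := fun z : (V × ℕ → ℝ) × ℝ => (q z.1 i.1, z.2))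
        (((hq _).comp measurable_fst).prodMk measurable_snd))
  have ig : ∀ a ∈ Set.Icc (-1 : ℝ) 1, Integrable (gg a) lam := fun a ha =>
    Integrable.of_bound (meas_gg.comp measurable_prodMk_left).aestronglyMeasurable 1
      (Filter.Eventually.of_forall (gg_abs ha))
  have hsub : D ×ˢ range N ⊆ S := hS ▸ product_subset_product_right (range_mono hN)
  have hup : up S U r = up (D ×ˢ range N) U r := by
    ext i
    simp only [up, mem_filter, hS, mem_product, mem_range]
    refine and_congr_left fun h => and_congr_right fun _ => ⟨fun _ => ?_, fun h => by omega⟩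
    by_contra hc
    have h1 : (N : ℝ) ≤ i.2 := by exact_mod_cast not_lt.1 hc
    rw [tm, aa, div_mul_eq_mul_div, lt_div_iff₀ (by positivity)] at h
    nlinarith [hU i]
  have key := orth (G := G) (D := D) (S := S) hR.h0 hR.h1 hinj
    (h := fun i z => (if i.1 ∈ bl H ρ o then
      Cw R (q i z.1) (pth H.tree o i.1) * gg (q i z.1 i.1) z.2 else 0) -
      Cw R (m i z.1) (pth H.tree o i.1) * gg (m i z.1 i.1) z.2)
    (fun i => by
      split_ifs
      · exact (mt i _ (mq i)).sub (mt i _ (mm i))
      · exact measurable_const.sub (mt i _ (mm i)))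
    (B := fun i ξ => if i.1 ∈ bl H ρ o then θ' ^ dd H.tree o i.1 * (2 * L + 9) *
      ∑ x ∈ (pth H.tree o i.1).support.toFinset, |q i ξ x - m i ξ x| else θ' ^ dd H.tree o i.1)
    (fun i => by
      split_ifs
      · exact (Finset.measurable_sum _ fun x _ => ((mq i x).sub (mm i x)).abs).const_mul _
      · exact measurable_const)
    (fun i ξ ξ' v h => by
      simp only [q, m, mp_local n (same_refl _ _) (vv_local (same_refl _ _) h), h.post])
    (fun i ξ v => by
      simp only
      split_ifs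
      · exact inc_bound hR (iq i ξ) (im i ξ) (pth_path _ _ _) v
      · rw [zero_sub, abs_neg, abs_mul]
        exact (mul_le_of_le_one_right (abs_nonneg _) (gg_abs (im i ξ _) v)).trans
          (Cw_abs hR (im i ξ) _))
    (fun i ξ => by
      simp only
      split_ifs
      · rw [integral_sub ((ig _ (iq i ξ _)).const_mul _) ((ig _ (im i ξ _)).const_mul _),
          integral_const_mul, integral_const_mul, int_gg (iq i ξ _), int_gg (im i ξ _)]
        simp
      · simp only [zero_sub]
        rw [integral_neg, integral_const_mul, int_gg (im i ξ _)]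
        simp)
    (up (D ×ˢ range N) U r) ((filter_subset _ _).trans hsub)
  refine le_trans (lintegral_mono fun ξ => ENNReal.ofReal_le_ofReal ?_) (key.trans ?_)
  · rw [sq_le_sq, ← clp_eq (post_mem (G := G) (D := D) hR.h0 hR.h1 (up S U r) ξ o), mp]
    refine (clp_lip _ _ _ _).trans (le_of_eq ?_)
    congr 1
    rw [sum_sub_distrib, ← sum_filter, post_tele hR H.tree hD ξ hoD hinj _
      fun i hi => (mem_product.1 (hS ▸ (mem_filter.1 hi).1)).1, ← hup]
    congr 1
    · refine sum_congr ?_ fun _ _ => rfl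
      rw [hup]
      ext i
      simp only [up, mem_filter, mem_product]
      exact ⟨fun h => ⟨⟨⟨ho h.1.1, h.1.2⟩, h.2⟩, h.1.1⟩, fun h => ⟨⟨h.2, h.1.1.2⟩, h.1.2⟩⟩
    · refine sum_congr rfl fun i hi => ?_
      have : (up S U r).filter (fun j => tm U i < tm U j) = up S U (tm U i) := by
        rw [up, filter_filter]
        exact filter_congr fun j _ => ⟨fun h => h.2, fun h => ⟨(mem_filter.1 hi).2.trans h, h⟩⟩
      rw [this, ← gg_vv hR.h0 hR.h1 (mem_filter.1 hi).1]
  · rw [up, sum_filter]
    refine sum_le_sum fun i _ => ?_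
    split_ifs with h1 h2
    · change _ ≤ _ * ∑ x ∈ _, ∫⁻ ξ, ENNReal.ofReal ((q i ξ x - m i ξ x) ^ 2) ∂_
      rw [← lintegral_finsetSum _ fun x _ =>
        (((mq i x).fun_sub (mm i x)).pow_const 2).ennreal_ofReal,
        ← lintegral_const_mul' _ _ ENNReal.ofReal_ne_top]
      refine lintegral_mono fun ξ => ?_
      rw [← ENNReal.ofReal_sum_of_nonneg fun _ _ => sq_nonneg _,
        ← ENNReal.ofReal_mul (by positivity), mul_pow, mul_assoc]
      gcongr
      refine sq_sum_le_card_mul_sum_sq.trans (le_of_eq ?_)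
      rw [List.toFinset_card_of_nodup (pth_path _ _ _).support_nodup, Walk.length_support]
      simp [dd]
    · simp
    · rfl

theorem time_le' (i : V × ℕ) {F : (V × ℕ → ℝ) × ℝ → ℝ≥0∞} (mF : Measurable F)
    (hF : ∀ U U' s, Same U U' s → F (U, s) = F (U', s)) {r c lm : ℝ} (hr : 0 < r) (hc : 0 ≤ c)
    (hl : 0 < lm)
    (hb : ∀ s, r < s → s ≤ 1 → ∫⁻ U, F (U, s) ∂piL _ ≤ ENNReal.ofReal (c * Real.exp (-lm * s))) :
    ∫⁻ U, (if r < tm U i then F (U, tm U i) else 0) ∂piL _ ≤
      ENNReal.ofReal (c * Real.exp (-lm * r) / (r * lm)) := by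
  have ha : aa i ≤ 1 := by rw [aa, div_le_one (by positivity)]; simp
  have := time_le i ha
    (D := fun z => if r < z.2 then (ENNReal.ofReal z.2 ^ 4)⁻¹ * F z else 0)
    (Measurable.ite (measurableSet_lt measurable_const measurable_snd)
      ((measurable_snd.ennreal_ofReal.pow_const 4).inv.mul mF) measurable_const)
    fun U u u' s h1 h2 => by
      rw [hF (Function.update U i u) (Function.update U i u') s fun j => by
        by_cases hj : j = i
        · subst hj; right; simp only [tm, Function.update_self]; exact ⟨h1, h2⟩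
        · left; simp only [tm, Function.update_of_ne hj]]
  refine le_trans (le_of_eq (lintegral_congr fun U => ?_)) (this.trans ?_)
  · change _ = ENNReal.ofReal (tm U i) ^ 4 *
      if r < tm U i then (ENNReal.ofReal (tm U i) ^ 4)⁻¹ * F (U, tm U i) else 0
    split_ifs with h
    · rw [← mul_assoc, ENNReal.mul_inv_cancel (pow_ne_zero _ (by simp; linarith))
        (ENNReal.pow_ne_top ENNReal.ofReal_ne_top), one_mul]
    · simp
  calc _ ≤ ∫⁻ s, (Set.Ioi r).indicator (fun s => ENNReal.ofReal (c / r * Real.exp (-lm * s))) s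
        ∂lam := by
        refine lintegral_mono_ae ?_
        filter_upwards [lam_ae] with s hs
        by_cases h : r < s
        · have hs0 : ENNReal.ofReal s ≠ 0 := by simpa using hs.1
          rw [Set.indicator_of_mem (by exact h)]
          calc _ ≤ ENNReal.ofReal s ^ 3 * ((ENNReal.ofReal s ^ 4)⁻¹ * ∫⁻ U, F (U, s) ∂piL _) := by
                rw [← lintegral_const_mul' (ENNReal.ofReal s ^ 4)⁻¹ _ (by simp [hs0])]
                gcongr with U
                split_ifs <;> simp
            _ ≤ ENNReal.ofReal s ^ 3 * ((ENNReal.ofReal s ^ 4)⁻¹ *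
                ENNReal.ofReal (c * Real.exp (-lm * s))) := by gcongr; exact hb s h hs.2.le
            _ ≤ _ := by
                rw [← ENNReal.ofReal_pow hs.1.le, ← ENNReal.ofReal_pow hs.1.le,
                  ← ENNReal.ofReal_inv_of_pos (pow_pos hs.1 _),
                  ← ENNReal.ofReal_mul (by have := hs.1; positivity),
                  ← ENNReal.ofReal_mul (by have := hs.1; positivity)]
                refine ENNReal.ofReal_le_ofReal ?_
                have := hs.1
                rw [show s ^ 3 * ((s ^ 4)⁻¹ * (c * Real.exp (-lm * s))) =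
                  c / s * Real.exp (-lm * s) by field_simp]
                gcongr
        · simp [h]
    _ ≤ ∫⁻ s in Set.Ioi r, ENNReal.ofReal (c / r * Real.exp (-lm * s)) := by
        rw [← lintegral_indicator measurableSet_Ioi]
        exact lintegral_mono' Measure.restrict_le_self le_rfl
    _ = _ := by
        rw [← ofReal_integral_eq_lintegral_ofReal
          ((integrableOn_exp_mul_Ioi (by linarith) r).const_mul _)
          (Filter.Eventually.of_forall fun s => by positivity), integral_const_mul,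
          integral_exp_mul_Ioi (by linarith)]
        congr 1
        field_simp

lemma aa_ne (i : V × ℕ) : aa i ≠ 0 := by unfold aa; positivity

theorem step2 [Countable V] (hR : RF θ θ' L R) (hD : Conn G D) {N' : ℕ} (hN : N ≤ N') {K : ℝ}
    (hK : ∀ o X, ∑ v ∈ X, ((dd H.tree o v : ℝ) + 1) ^ 2 * (θ' ^ dd H.tree o v) ^ 2 ≤ K)
    {lm : ℝ} (hl0 : 0 < lm) (hl : 2 * (N ^ 2 * K * (2 * L + 9) ^ 2) ≤ lm) (n : ℕ) {o : V}
    (ho : bl H (n * ρ) o ⊆ D) {r : ℝ} (hr0 : 0 < r) (hr : 1 ≤ N * r) (hr1 : r ≤ 1) :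
    ∫⁻ U, er H θ R N ρ D (D ×ˢ range N') n U r o ∂piL _ ≤ ENNReal.ofReal
      (((1 / 2) ^ n + 2 * (N * K / (ρ + 1) ^ 2)) * Real.exp lm * Real.exp (-lm * r)) := by
  have hK0 : 0 ≤ K := by simpa using hK o ∅
  have he : ∀ r ≤ 1, 1 ≤ Real.exp lm * Real.exp (-lm * r) := fun r hr => by
    rw [← Real.exp_add]; exact Real.one_le_exp (by nlinarith)
  induction n generalizing o r with
  | zero =>
    have hoD : o ∈ D := ho ((mem_bl H).2 (by simp [dd_self]))
    have := mu_prob hR.h0 hR.h1 H.tree hD ⟨o, hoD⟩ (D ×ˢ range N')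
    calc _ ≤ ∫⁻ _, 1 ∂piL (V × ℕ) := by
          refine lintegral_mono fun U => (lintegral_mono (g := fun _ => 1) fun ξ => ?_).trans (by simp)
          have := post_mem (G := G) (D := D) hR.h0 hR.h1 (up (D ×ˢ range N') U r) ξ o
          refine ENNReal.ofReal_le_one.2 ?_
          simp only [mp]
          nlinarith [this.1, this.2]
      _ ≤ _ := by
          rw [lintegral_const, measure_univ, mul_one, ENNReal.one_le_ofReal, mul_assoc]
          have : 0 ≤ 2 * (N * K / (ρ + 1) ^ 2) := by positivity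
          nlinarith [he r hr1]
  | succ n ih =>
    obtain ⟨c, hc⟩ : ∃ c, c = ((1 / 2) ^ n + 2 * (N * K / (ρ + 1) ^ 2)) * Real.exp lm := ⟨_, rfl⟩
    have hc0 : 0 ≤ c := by rw [hc]; positivity
    have ho' : bl H ρ o ⊆ D := fun x hx => ho ((mem_bl H).2 (((mem_bl H).1 hx).trans (by nlinarith)))
    have me : ∀ (i : V × ℕ) u, Measurable fun U => er H θ R N ρ D (D ×ˢ range N') n U (tm U i) u :=
      fun i u => (meas_er hR _ n u).comp (f := fun U => (U, tm U i))
        (measurable_id.prodMk (meas_tm measurable_id i))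
    have mi : ∀ i : V × ℕ, MeasurableSet {U | r < tm U i} := fun i =>
      measurableSet_lt measurable_const (meas_tm measurable_id i)
    refine (lintegral_mono_ae ((piL_inj aa_ne).and piL_ae |>.mono fun U hU =>
      step1 hR hD hN hU.1 (fun i => (hU.2 i).2) hr0 hr ho' n)).trans ?_
    rw [lintegral_finsetSum _ fun i _ => Measurable.ite (mi i) (by
      split_ifs
      · exact (Finset.measurable_sum _ fun u _ => me i u).const_mul _
      · exact measurable_const) measurable_const]
    refine (sum_le_sum (g := fun i => ENNReal.ofReal (((dd H.tree o i.1 : ℝ) + 1) ^ 2 *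
      (θ' ^ dd H.tree o i.1) ^ 2 * ((2 * L + 9) ^ 2 * (c * Real.exp (-lm * r) / (r * lm)) +
        1 / (ρ + 1) ^ 2))) fun i hi => ?_).trans ?_
    · by_cases hb : i.1 ∈ bl H ρ o
      · simp only [hb, if_true]
        have : ∀ U, (if r < tm U i then ENNReal.ofReal ((θ' ^ dd H.tree o i.1 * (2 * L + 9)) ^ 2 *
            (dd H.tree o i.1 + 1)) * ∑ u ∈ (pth H.tree o i.1).support.toFinset,
            er H θ R N ρ D (D ×ˢ range N') n U (tm U i) u else 0) =
            ENNReal.ofReal ((θ' ^ dd H.tree o i.1 * (2 * L + 9)) ^ 2 *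
            (dd H.tree o i.1 + 1)) * ∑ u ∈ (pth H.tree o i.1).support.toFinset,
            if r < tm U i then er H θ R N ρ D (D ×ˢ range N') n U (tm U i) u else 0 := fun U => by
          split_ifs <;> simp
        simp only [this]
        rw [lintegral_const_mul' _ _ ENNReal.ofReal_ne_top, lintegral_finsetSum _ fun u _ =>
          Measurable.ite (mi i) (me i u) measurable_const]
        have hu : ∀ u ∈ (pth H.tree o i.1).support.toFinset, bl H (n * ρ) u ⊆ D := by
          intro u hu x hx
          apply ho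
          rw [mem_bl] at hx hb ⊢
          have := dd_tri H.tree o u x
          have := dd_supp H.tree (List.mem_toFinset.1 hu)
          nlinarith
        refine (mul_le_mul_right (sum_le_card_nsmul _ _ _ fun u hu' => time_le' i (meas_er hR _ n u)
          (fun U U' s h => er_local _ n u h) hr0 hc0 hl0 fun s hs hs1 => hc ▸ ih (hu u hu')
            (hr0.trans hs) (hr.trans (by gcongr)) hs1) _).trans ?_
        · rw [List.toFinset_card_of_nodup (pth_path _ _ _).support_nodup, Walk.length_support,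
            nsmul_eq_mul, ← ENNReal.ofReal_natCast, ← ENNReal.ofReal_mul (by positivity),
            ← ENNReal.ofReal_mul (by positivity)]
          refine ENNReal.ofReal_le_ofReal ?_
          rw [← dd, mul_add]
          push_cast
          have : 0 ≤ ((dd H.tree o i.1 : ℝ) + 1) ^ 2 * (θ' ^ dd H.tree o i.1) ^ 2 *
            (1 / (ρ + 1) ^ 2) := by positivity
          linear_combination this
      · simp only [hb, if_false]
        refine (lintegral_mono (g := fun _ => ENNReal.ofReal ((θ' ^ dd H.tree o i.1) ^ 2))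
          fun U => by split_ifs <;> simp).trans ?_
        rw [lintegral_const, measure_univ, mul_one, mul_add]
        refine ENNReal.ofReal_le_ofReal (le_add_of_nonneg_of_le (by positivity) ?_)
        rw [mul_one_div, le_div_iff₀ (by positivity), mul_comm]
        rw [mem_bl] at hb
        have : (ρ : ℝ) ≤ dd H.tree o i.1 := by exact_mod_cast (not_le.1 hb).le
        gcongr
    · rw [← ENNReal.ofReal_sum_of_nonneg fun _ _ => by positivity]
      refine ENNReal.ofReal_le_ofReal ?_
      rw [← sum_mul, sum_product]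
      simp only [sum_const, card_range, nsmul_eq_mul, ← mul_sum]
      refine (mul_le_mul_of_nonneg_right (mul_le_mul_of_nonneg_left (hK o D) (by positivity))
        (by positivity)).trans ?_
      have h1 : N * K * ((2 * L + 9) ^ 2 * (c * Real.exp (-lm * r) / (r * lm))) ≤
          c * Real.exp (-lm * r) / 2 := by
        rw [← mul_assoc, mul_div_assoc', div_le_div_iff₀ (by positivity) (by positivity),
          mul_comm _ (c * _), mul_assoc (c * _)]
        refine mul_le_mul_of_nonneg_left ?_ (by positivity)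
        have : 0 ≤ N * K * (2 * L + 9) ^ 2 := by positivity
        nlinarith [mul_le_mul_of_nonneg_left hl hr0.le, mul_le_mul_of_nonneg_left hr this]
      have h2 : N * K * (1 / ((ρ : ℝ) + 1) ^ 2) ≤
          N * K / (ρ + 1) ^ 2 * (Real.exp lm * Real.exp (-lm * r)) := by
        rw [mul_one_div]
        exact le_mul_of_one_le_right (by positivity) (he r hr1)
      rw [mul_add]
      refine (add_le_add h1 h2).trans (le_of_eq ?_)
      rw [hc]; ring

end

end Vale.Agent.P161
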