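import Vale.Agent.P161.Tree

open Finset SimpleGraph
open scoped Classical

namespace Vale.Agent.P161

noncomputable section

variable {V : Type*} {G : SimpleGraph V} {θ : ℝ} {D : Finset V}

def WW (G : SimpleGraph V) (θ : ℝ) (D : Finset V) (T : Finset (V × ℕ)) (ξ : V × ℕ → ℝ)
    (P : Finset V) : ℝ := wt G θ D P * ∏ i ∈ T, (1 + sg P i.1 * pp (ξ i))

def av (G : SimpleGraph V) (θ : ℝ) (D : Finset V) (T : Finset (V × ℕ)) (ξ : V × ℕ → ℝ)
    (f : Finset V → ℝ) : ℝ := ∑ P ∈ D.powerset, WW G θ D T ξ P * f P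

def ZZ (G : SimpleGraph V) (θ : ℝ) (D : Finset V) (T : Finset (V × ℕ)) (ξ : V × ℕ → ℝ) : ℝ :=
  av G θ D T ξ fun _ => 1

def post (G : SimpleGraph V) (θ : ℝ) (D : Finset V) (T : Finset (V × ℕ)) (ξ : V × ℕ → ℝ)
    (o : V) : ℝ := av G θ D T ξ (fun P => sg P o) / ZZ G θ D T ξ

def cov (G : SimpleGraph V) (θ : ℝ) (D : Finset V) (T : Finset (V × ℕ)) (ξ : V × ℕ → ℝ)
    (o u : V) : ℝ := av G θ D T ξ (fun P => sg P u * sg P o) / ZZ G θ D T ξ -
      post G θ D T ξ o * post G θ D T ξ u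

lemma obs_pos (P : Finset V) (v : V) (x : ℝ) : 0 < 1 + sg P v * pp x := by
  linarith [one_add_ge (sg_mem P v) (pp_abs x)]

lemma WW_local {T : Finset (V × ℕ)} {ξ ξ' : V × ℕ → ℝ} (h : ∀ i ∈ T, ξ i = ξ' i) :
    WW G θ D T ξ = WW G θ D T ξ' := by
  funext P
  unfold WW
  rw [prod_congr rfl fun i hi => by rw [h i hi]]

lemma post_local {T : Finset (V × ℕ)} {ξ ξ' : V × ℕ → ℝ} (h : ∀ i ∈ T, ξ i = ξ' i) :
    post G θ D T ξ = post G θ D T ξ' := by
  funext o
  simp only [post, ZZ, av, WW_local h]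

lemma WW_insert {T : Finset (V × ℕ)} {i : V × ℕ} (hi : i ∉ T) (ξ : V × ℕ → ℝ) (P : Finset V) :
    WW G θ D (insert i T) ξ P = WW G θ D T ξ P * (1 + sg P i.1 * pp (ξ i)) := by
  unfold WW
  rw [prod_insert hi]; ring

lemma av_insert {T : Finset (V × ℕ)} {i : V × ℕ} (hi : i ∉ T) (ξ : V × ℕ → ℝ) (f : Finset V → ℝ) :
    av G θ D (insert i T) ξ f = av G θ D T ξ f + pp (ξ i) * av G θ D T ξ fun P => sg P i.1 * f P := by
  simp only [av, WW_insert hi, mul_sum, ← sum_add_distrib]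
  exact sum_congr rfl fun P _ => by ring

lemma avg_mem {κ : Type*} {s : Finset κ} (hs : s.Nonempty) {w f : κ → ℝ} (hw : ∀ i, 0 < w i)
    (hf : ∀ i, f i ∈ Set.Icc (-1 : ℝ) 1) :
    (∑ i ∈ s, w i * f i) / (∑ i ∈ s, w i) ∈ Set.Icc (-1 : ℝ) 1 := by
  have := sum_pos (fun i _ => hw i) hs
  rw [Set.mem_Icc, le_div_iff₀ this, div_le_iff₀ this, mul_sum, mul_sum]
  exact ⟨sum_le_sum fun i _ => by nlinarith [hw i, (hf i).1],
    sum_le_sum fun i _ => by nlinarith [hw i, (hf i).2]⟩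

section pos
variable (h0 : 0 ≤ θ) (h1 : θ < 1)
include h0 h1

lemma WW_pos (T : Finset (V × ℕ)) (ξ : V × ℕ → ℝ) (P : Finset V) : 0 < WW G θ D T ξ P :=
  mul_pos (wt_pos h0 h1 _ _) (prod_pos fun _ _ => obs_pos _ _ _)

lemma ZZ_pos (T : Finset (V × ℕ)) (ξ : V × ℕ → ℝ) : 0 < ZZ G θ D T ξ :=
  sum_pos (fun P _ => by simpa using WW_pos h0 h1 T ξ P) (powerset_nonempty _)

lemma post_mem (T : Finset (V × ℕ)) (ξ : V × ℕ → ℝ) (o : V) :
    post G θ D T ξ o ∈ Set.Icc (-1 : ℝ) 1 := by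
  simp only [post, ZZ, av, mul_one]
  exact avg_mem (powerset_nonempty _) (WW_pos h0 h1 T ξ) fun P => sg_mem P o

lemma ZZ_insert {T : Finset (V × ℕ)} {i : V × ℕ} (hi : i ∉ T) (ξ : V × ℕ → ℝ) :
    ZZ G θ D (insert i T) ξ = ZZ G θ D T ξ * (1 + post G θ D T ξ i.1 * pp (ξ i)) := by
  have := ZZ_pos (G := G) (D := D) h0 h1 T ξ
  rw [ZZ, av_insert hi, post, ← ZZ]
  simp only [mul_one]
  field_simp

lemma post_insert {T : Finset (V × ℕ)} {i : V × ℕ} (hi : i ∉ T) (ξ : V × ℕ → ℝ) (o : V) :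
    post G θ D (insert i T) ξ o =
      post G θ D T ξ o + cov G θ D T ξ o i.1 * GG (post G θ D T ξ i.1) (ξ i) := by
  have := ZZ_pos (G := G) (D := D) h0 h1 T ξ
  have h2 := one_add_ge (post_mem (G := G) (D := D) h0 h1 T ξ i.1) (pp_abs (ξ i))
  have h3 : 1 + pp (ξ i) * post G θ D T ξ i.1 ≠ 0 := by linarith
  have h4 : av G θ D T ξ (fun P => sg P o) = post G θ D T ξ o * ZZ G θ D T ξ := by
    rw [post]; field_simp
  rw [post, ZZ_insert h0 h1 hi, av_insert hi, h4, cov, GG, mul_comm _ (pp (ξ i))]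
  field_simp
  ring

lemma post_opt (T : Finset (V × ℕ)) (ξ : V × ℕ → ℝ) (o : V) (c : ℝ) :
    av G θ D T ξ (fun P => (post G θ D T ξ o - sg P o) ^ 2) ≤
      av G θ D T ξ fun P => (c - sg P o) ^ 2 := by
  have := ZZ_pos (G := G) (D := D) h0 h1 T ξ
  have h4 : av G θ D T ξ (fun P => sg P o) = post G θ D T ξ o * ZZ G θ D T ξ := by
    rw [post]; field_simp
  have e : ∀ c, av G θ D T ξ (fun P => (c - sg P o) ^ 2) = (c ^ 2 + 1) * ZZ G θ D T ξ -
      2 * c * av G θ D T ξ (fun P => sg P o) := fun c => by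
    simp only [ZZ, av, mul_sum, ← sum_sub_distrib]
    exact sum_congr rfl fun P _ => by linear_combination WW G θ D T ξ P * sg_sq P o
  rw [e, e, h4]
  nlinarith [mul_nonneg this.le (sq_nonneg (c - post G θ D T ξ o))]

lemma markov (hT : G.IsTree) (T : Finset (V × ℕ)) (ξ : V × ℕ → ℝ) {a b : V} (hab : G.Adj a b)
    (ha : a ∈ D) (hb : b ∈ D) : ∃ z ∈ Set.Icc (-1 : ℝ) 1, ∀ f : Finset V → ℝ,
      Dep {x | (G.deleteEdges {s(a, b)}).Reachable a x}ᶜ f →
      av G θ D T ξ (fun P => f P * sg P a) =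
        al θ z * av G θ D T ξ f + rr θ z * av G θ D T ξ fun P => f P * sg P b := by
  obtain ⟨A, hA⟩ : ∃ A, A = {x | (G.deleteEdges {s(a, b)}).Reachable a x} := ⟨_, rfl⟩
  have haA : a ∈ A := hA ▸ Reachable.refl a
  have hbA : b ∈ Aᶜ := hA ▸ isAcyclic_iff_forall_adj_isBridge.1 hT.isAcyclic hab
  have hE : ∀ e ∈ (ED G D).erase s(a, b), ¬ (∀ x ∈ e, x ∈ A) → ∀ x ∈ e, x ∈ Aᶜ := by
    have : ∀ x y, G.Adj x y → s(x, y) ≠ s(a, b) → x ∈ A → y ∈ A := fun x y h h' hx => by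
      rw [hA] at hx ⊢
      exact Reachable.trans hx (Adj.reachable (by simp only [deleteEdges_adj]; exact ⟨h, h'⟩))
    intro e he
    induction e with
    | h x y =>
    simp only [ED, mem_erase, mem_filter, mem_edgeSet] at he
    have a1 := this x y he.2.2 he.1
    have a2 := this y x he.2.2.symm (by rw [Sym2.eq_swap]; exact he.1)
    simp only [Sym2.mem_iff, forall_eq_or_imp, forall_eq, Set.mem_compl_iff]
    tauto
  rw [← hA]
  obtain ⟨F, hF⟩ : ∃ F : Finset V → ℝ, F = fun P =>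
    (∏ e ∈ (ED G D).erase s(a, b) with ∀ x ∈ e, x ∈ A, ew θ P e) *
      ∏ i ∈ T with i.1 ∈ A, (1 + sg P i.1 * pp (ξ i)) := ⟨_, rfl⟩
  obtain ⟨H, hH⟩ : ∃ H : Finset V → ℝ, H = fun P =>
    (∏ e ∈ (ED G D).erase s(a, b) with ¬ ∀ x ∈ e, x ∈ A, ew θ P e) *
      ∏ i ∈ T with ¬ i.1 ∈ A, (1 + sg P i.1 * pp (ξ i)) := ⟨_, rfl⟩
  have dF : Dep A F := hF ▸ (dep_prod fun e he => dep_ew (mem_filter.1 he).2 θ).mul
    (dep_prod fun i hi P Q h => by simp only [sg, h _ (mem_filter.1 hi).2])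
  have dH : Dep Aᶜ H := hH ▸
    (dep_prod fun e he => dep_ew (hE e (mem_filter.1 he).1 (mem_filter.1 he).2) θ).mul
    (dep_prod fun i hi P Q h => by simp only [sg, h _ (mem_filter.1 hi).2])
  have pF : ∀ P, 0 < F P := fun P => hF ▸
    mul_pos (prod_pos fun _ _ => ew_pos h0 h1 _ _) (prod_pos fun _ _ => obs_pos _ _ _)
  have eW : ∀ P, WW G θ D T ξ P = F P * H P * (1 + θ * (sg P a * sg P b)) / 4 := fun P => by
    simp only [WW, wt, hF, hH]
    rw [← mul_prod_erase (ED G D) _ (a := s(a, b)) (by simp [ED, ha, hb, hab]),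
      ← prod_filter_mul_prod_filter_not ((ED G D).erase s(a, b)) (fun e => ∀ x ∈ e, x ∈ A),
      ← prod_filter_mul_prod_filter_not T (fun i => i.1 ∈ A)]
    simp only [ew, Sym2.map_mk, Sym2.mul_mk]
    ring
  have pA := sum_pos (s := D.powerset) (fun P _ => pF P) (powerset_nonempty _)
  refine ⟨_, avg_mem (powerset_nonempty D) pF fun P => sg_mem P a, fun f hf => ?_⟩
  have hz := den_pos h0 h1 (avg_mem (powerset_nonempty D) pF fun P => sg_mem P a)
  have m1 := mix D dF (dH.mul hf)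
  have m2 := mix D (dF.mul (dep_sg haA)) (dH.mul hf)
  have m3 := mix D dF ((dH.mul hf).mul (dep_sg hbA))
  have m4 := mix D (dF.mul (dep_sg haA)) ((dH.mul hf).mul (dep_sg hbA))
  have c1 : av G θ D T ξ (fun P => f P * sg P a) = ((∑ P ∈ D.powerset, F P * sg P a * (H P * f P)) +
      θ * ∑ P ∈ D.powerset, F P * (H P * f P * sg P b)) / 4 := by
    simp only [av, eW, mul_sum, ← sum_add_distrib, sum_div]
    exact sum_congr rfl fun P _ => by
      linear_combination (F P * H P * f P * θ * sg P b / 4) * sg_sq P a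
  have c2 : av G θ D T ξ f = ((∑ P ∈ D.powerset, F P * (H P * f P)) +
      θ * ∑ P ∈ D.powerset, F P * sg P a * (H P * f P * sg P b)) / 4 := by
    simp only [av, eW, mul_sum, ← sum_add_distrib, sum_div]
    exact sum_congr rfl fun P _ => by ring
  have c3 : av G θ D T ξ (fun P => f P * sg P b) = ((∑ P ∈ D.powerset, F P * (H P * f P * sg P b)) +
      θ * ∑ P ∈ D.powerset, F P * sg P a * (H P * f P)) / 4 := by
    simp only [av, eW, mul_sum, ← sum_add_distrib, sum_div]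
    exact sum_congr rfl fun P _ => by
      linear_combination (F P * H P * f P * θ * sg P a / 4) * sg_sq P b
  have h2 : (2 : ℝ) ^ D.card ≠ 0 := by positivity
  rw [c1, c2, c3, ← (div_eq_iff h2).2 (m1.trans (mul_comm _ _)),
    ← (div_eq_iff h2).2 (m2.trans (mul_comm _ _)), ← (div_eq_iff h2).2 (m3.trans (mul_comm _ _)),
    ← (div_eq_iff h2).2 (m4.trans (mul_comm _ _))]
  obtain ⟨z, hz'⟩ : ∃ z, z = (∑ P ∈ D.powerset, F P * sg P a) / ∑ P ∈ D.powerset, F P := ⟨_, rfl⟩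
  rw [← hz'] at hz ⊢
  rw [← (div_eq_iff pA.ne').1 hz'.symm |>.symm]
  have a1 : al θ z + θ * z * rr θ z = z := by
    unfold al rr; rw [mul_div_assoc', ← add_div, div_eq_iff hz.ne']; ring
  have a2 : al θ z * θ * z + rr θ z = θ := by
    unfold al rr; rw [div_mul_eq_mul_div, div_mul_eq_mul_div, ← add_div, div_eq_iff hz.ne']; ring
  linear_combination (-(∑ P ∈ D.powerset, F P) * (∑ P ∈ D.powerset, H P * f P) / 2 ^ D.card / 4) * a1 -
    ((∑ P ∈ D.powerset, F P) * (∑ P ∈ D.powerset, H P * f P * sg P b) / 2 ^ D.card / 4) * a2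

end pos

def Cw (R : ℝ → ℝ → ℝ) (m : V → ℝ) : {a u : V} → G.Walk a u → ℝ
  | a, _, Walk.nil => 1 - m a ^ 2
  | a, _, @Walk.cons _ _ _ b _ _ p => R (m b) (m a) * Cw R m p

/-- the facts about the regression function -/
structure RF (θ θ' L : ℝ) (R : ℝ → ℝ → ℝ) : Prop where
  h0 : 0 ≤ θ
  h1 : θ < 1
  pos : 0 < θ'
  two : 2 ≤ L
  meas : Measurable (Function.uncurry R)
  bd : ∀ a y, |R a y| ≤ θ'
  eq : ∀ a ∈ Set.Icc (-1 : ℝ) 1, ∀ x ∈ Set.Icc (-1 : ℝ) 1,
    al θ x + rr θ x * a ∈ Set.Icc (-1 : ℝ) 1 → R a (al θ x + rr θ x * a) = rr θ x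
  lip : ∀ a a' y y', |R a y - R a' y'| ≤ θ' * L * (|a - a'| + |y - y'|)

lemma exists_RF (h0 : 0 ≤ θ) (h1 : θ < 1) {θ' : ℝ} (h2 : θ ≤ θ') (h3 : 0 < θ') :
    ∃ L R, RF θ θ' L R := by
  obtain ⟨R, L, a1, a2, a3, a4, a5⟩ := exists_rf h0 h1
  refine ⟨2 + L / θ', R, h0, h1, h3, by simp; positivity, a2, fun a y => (a3 a y).trans h2, a4,
    fun a a' y y' => (a5 a a' y y').trans ?_⟩
  gcongr
  rw [mul_add, mul_div_cancel₀ _ h3.ne']
  linarith

variable {θ' L : ℝ} {R : ℝ → ℝ → ℝ}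

lemma cov_eq (hR : RF θ θ' L R) (hT : G.IsTree) (T : Finset (V × ℕ)) (ξ : V × ℕ → ℝ) {a u : V}
    (p : G.Walk a u) (hp : p.IsPath) (hD : ∀ x ∈ p.support, x ∈ D) :
    cov G θ D T ξ a u = Cw R (post G θ D T ξ) p := by
  have hZ := ZZ_pos (G := G) (D := D) hR.h0 hR.h1 T ξ
  induction p with
  | nil =>
    simp only [cov, sg_sq, Cw]
    rw [← ZZ, div_self hZ.ne', sq]
  | @cons a b u hab p ih =>
    rw [Walk.cons_isPath_iff] at hp
    simp only [Walk.support_cons, List.mem_cons, forall_eq_or_imp] at hD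
    obtain ⟨z, hz, H⟩ := markov hR.h0 hR.h1 hT T ξ hab hD.1 (hD.2 _ p.start_mem_support)
    have hu : u ∈ {x | (G.deleteEdges {s(a, b)}).Reachable a x}ᶜ := fun h =>
      isAcyclic_iff_forall_adj_isBridge.1 hT.isAcyclic hab (Reachable.trans h (Reachable.symm
        (reachable_deleteEdges_iff_exists_walk.2
          ⟨p, fun h => hp.2 (p.fst_mem_support_of_mem_edges h)⟩)))
    have e1 := H _ (dep_const _ 1)
    have e2 := H _ (dep_sg hu)
    simp only [one_mul] at e1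
    have e3 : post G θ D T ξ a = al θ z + rr θ z * post G θ D T ξ b := by
      rw [post, post, e1, ← ZZ]; field_simp
    rw [Cw, ← ih hp.1 hD.2, e3, hR.eq _ (post_mem hR.h0 hR.h1 _ _ _) _ hz
      (e3 ▸ post_mem hR.h0 hR.h1 _ _ _), cov, cov, e2, e3, post, post]
    field_simp
    ring

lemma Cw_abs (hR : RF θ θ' L R) {m : V → ℝ} (hm : ∀ v, m v ∈ Set.Icc (-1 : ℝ) 1) {a u : V}
    (p : G.Walk a u) : |Cw R m p| ≤ θ' ^ p.length := by
  induction p with
  | @nil a =>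
    have := hm a
    rw [Cw, abs_le, Walk.length_nil, pow_zero]
    constructor <;> nlinarith [this.1, this.2]
  | cons h p ih =>
    rw [Cw, abs_mul, Walk.length_cons, pow_succ']
    exact mul_le_mul (hR.bd _ _) ih (abs_nonneg _) hR.pos.le

lemma Cw_lip (hR : RF θ θ' L R) {m m' : V → ℝ} (hm : ∀ v, m v ∈ Set.Icc (-1 : ℝ) 1)
    (hm' : ∀ v, m' v ∈ Set.Icc (-1 : ℝ) 1) {a u : V} (p : G.Walk a u) :
    |Cw R m p - Cw R m' p| ≤ θ' ^ p.length * L *
      (2 * (p.support.map fun x => |m x - m' x|).sum - |m a - m' a|) := by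
  induction p with
  | @nil a =>
    have e : Cw R m (Walk.nil : G.Walk a a) - Cw R m' (Walk.nil : G.Walk a a) =
      -(m a + m' a) * (m a - m' a) := by simp only [Cw]; ring
    have : |-(m a + m' a)| ≤ L := by
      rw [abs_le]; constructor <;> linarith [(hm a).1, (hm a).2, (hm' a).1, (hm' a).2, hR.two]
    rw [e, abs_mul]
    simp only [Walk.length_nil, pow_zero, one_mul, Walk.support_nil, List.map_cons, List.map_nil,
      List.sum_cons, List.sum_nil, add_zero]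
    rw [two_mul, add_sub_cancel_right]
    gcongr
  | @cons a b u h p ih =>
    have e : Cw R m (Walk.cons h p) - Cw R m' (Walk.cons h p) = R (m b) (m a) *
      (Cw R m p - Cw R m' p) + (R (m b) (m a) - R (m' b) (m' a)) * Cw R m' p := by
      simp only [Cw]; ring
    rw [e]
    refine (abs_add_le _ _).trans ?_
    rw [abs_mul, abs_mul]
    refine (add_le_add (mul_le_mul (hR.bd _ _) ih (abs_nonneg _) hR.pos.le)
      (mul_le_mul (hR.lip _ _ _ _) (Cw_abs hR hm' p) (abs_nonneg _)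
        ((abs_nonneg _).trans (hR.lip _ _ _ _)))).trans (le_of_eq ?_)
    simp only [Walk.length_cons, Walk.support_cons, List.map_cons, List.sum_cons]
    ring

lemma Cw_map (g : G ≃g G) (m : V → ℝ) {a u : V} (p : G.Walk a u) :
    Cw R m (p.map g.toHom) = Cw R (fun v => m (g v)) p := by
  induction p with
  | nil => rfl
  | cons h p ih => simp only [Walk.map_cons, Cw, ih]; rfl

lemma meas_Cw (hR : RF θ θ' L R) {Ω : Type*} [MeasurableSpace Ω] {m : Ω → V → ℝ}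
    (hm : ∀ v, Measurable fun ω => m ω v) {a u : V} (p : G.Walk a u) :
    Measurable fun ω => Cw R (m ω) p := by
  induction p with
  | nil => exact ((hm _).pow_const 2).const_sub 1
  | @cons a b u h p ih =>
    exact (hR.meas.comp (f := fun ω => (m ω b, m ω a)) ((hm b).prodMk (hm a))).mul ih

lemma post_empty (hT : G.IsTree) (hD : Conn G D) (ξ : V × ℕ → ℝ) {o : V} (ho : o ∈ D) :
    post G θ D ∅ ξ o = 0 := by
  have := marg_one hT θ hD ho id
  simp only [id] at this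
  simp [post, av, WW, this]

/-- telescoping -/
lemma post_tele (hR : RF θ θ' L R) (hT : G.IsTree) (hD : Conn G D) (ξ : V × ℕ → ℝ) {o : V}
    (ho : o ∈ D) {t : V × ℕ → ℝ} (ht : Function.Injective t) (T : Finset (V × ℕ))
    (hTD : ∀ i ∈ T, i.1 ∈ D) : post G θ D T ξ o = ∑ i ∈ T,
      Cw R (post G θ D (T.filter fun j => t i < t j) ξ) (pth hT o i.1) *
        GG (post G θ D (T.filter fun j => t i < t j) ξ i.1) (ξ i) := by
  induction T using Finset.induction_on_min_value t with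
  | empty => simp [post_empty hT hD ξ ho]
  | insert e s he hmin ih =>
    have hlt : ∀ j ∈ s, t e < t j := fun j hj => lt_of_le_of_ne (hmin j hj) fun h => by
      rw [ht h] at he; exact he hj
    rw [post_insert hR.h0 hR.h1 he, sum_insert he, ih fun i hi => hTD i (mem_insert_of_mem hi),
      add_comm, filter_insert, if_neg (lt_irrefl _), filter_true_of_mem hlt,
      cov_eq hR hT s ξ _ (pth_path hT o e.1) (hD.pth hT ho (hTD e (mem_insert_self _ _)))]
    congr 1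
    refine sum_congr rfl fun i hi => ?_
    rw [filter_insert, if_neg (hlt i hi).not_gt]

end

end Vale.Agent.P161
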