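import Vale.Agent.P143.Vert

open MeasureTheory Filter Topology Set
open scoped ENNReal
open Vale.Agent.P143 (lam)

namespace Vale.Agent.P161

noncomputable section

def clp (lo hi x : ℝ) : ℝ := max lo (min hi x)

lemma clp_mem {lo hi : ℝ} (h : lo ≤ hi) (x : ℝ) : clp lo hi x ∈ Icc lo hi :=
  ⟨le_max_left _ _, max_le h (min_le_left _ _)⟩

lemma clp_eq {lo hi x : ℝ} (h : x ∈ Icc lo hi) : clp lo hi x = x := by
  rw [clp, min_eq_right h.2, max_eq_right h.1]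

lemma clp_lip (lo hi x y : ℝ) : |clp lo hi x - clp lo hi y| ≤ |x - y| := by
  unfold clp
  refine (abs_max_sub_max_le_max _ _ _ _).trans (max_le (by simp) ?_)
  exact (abs_min_sub_min_le_max _ _ _ _).trans (max_le (by simp) le_rfl)

lemma continuous_clp (lo hi : ℝ) : Continuous (clp lo hi) := by unfold clp; fun_prop

lemma exists_inv (f : ℝ → ℝ → ℝ) {lo hi c : ℝ} (hc : 0 < c) (hlo : lo ≤ hi)
    (cont : ∀ a ∈ Icc (-1 : ℝ) 1, ContinuousOn (f a) (Icc lo hi))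
    (ends : ∀ a ∈ Icc (-1 : ℝ) 1, f a lo = lo ∧ f a hi = hi)
    (hexp : ∀ a ∈ Icc (-1 : ℝ) 1, ∀ x ∈ Icc lo hi, ∀ x' ∈ Icc lo hi, c * |x - x'| ≤ |f a x - f a x'|)
    (hlip : ∀ a a', ∀ x ∈ Icc lo hi, |f a x - f a' x| ≤ |a - a'|) :
    ∃ Z : ℝ → ℝ → ℝ, Continuous (Function.uncurry Z) ∧ (∀ a y, Z a y ∈ Icc lo hi) ∧
      (∀ a ∈ Icc (-1 : ℝ) 1, ∀ x ∈ Icc lo hi, f a x ∈ Icc lo hi → Z a (f a x) = x) ∧
      ∀ a a' y y', c * |Z a y - Z a' y'| ≤ |a - a'| + |y - y'| := by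
  have h1 : ∀ a y, ∃ z ∈ Icc lo hi, f (clp (-1) 1 a) z = clp lo hi y := by
    intro a y
    have ha := clp_mem (show (-1 : ℝ) ≤ 1 by norm_num) a
    have := intermediate_value_Icc hlo (cont _ ha)
    rw [(ends _ ha).1, (ends _ ha).2] at this
    exact this (clp_mem hlo y)
  choose Z hZ1 hZ2 using h1
  have h2 : ∀ a a' y y', c * |Z a y - Z a' y'| ≤ |a - a'| + |y - y'| := by
    intro a a' y y'
    have ha := clp_mem (show (-1 : ℝ) ≤ 1 by norm_num) a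
    have e1 := hexp _ ha _ (hZ1 a y) _ (hZ1 a' y')
    have e2 := hlip (clp (-1) 1 a') (clp (-1) 1 a) _ (hZ1 a' y')
    have e3 := clp_lip (-1) 1 a' a
    have e4 := clp_lip lo hi y y'
    rw [hZ2] at e1 e2
    have e5 := abs_sub_le (clp lo hi y) (clp lo hi y') (f (clp (-1) 1 a) (Z a' y'))
    rw [abs_sub_comm a' a] at e3
    linarith
  refine ⟨Z, ?_, hZ1, fun a ha x hx hf => ?_, h2⟩
  · refine (LipschitzWith.of_dist_le' (K := 2 / c) fun p q => ?_).continuous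
    have := h2 p.1 q.1 p.2 q.2
    have a1 : |p.1 - q.1| ≤ dist p q := le_max_left (dist p.1 q.1) _
    have a2 : |p.2 - q.2| ≤ dist p q := le_max_right _ (dist p.2 q.2)
    rw [div_mul_eq_mul_div, le_div_iff₀ hc]
    change |Z p.1 p.2 - Z q.1 q.2| * c ≤ _
    linarith
  · have e1 := hexp a ha _ (hZ1 a (f a x)) x hx
    have e2 := hZ2 a (f a x)
    rw [clp_eq ha, clp_eq hf] at e2
    rw [e2, sub_self, abs_zero] at e1
    have : |Z a (f a x) - x| ≤ 0 := by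
      by_contra h
      nlinarith
    exact sub_eq_zero.1 (abs_nonpos_iff.1 this)

/-! ### the observation channel -/

def pp (x : ℝ) : ℝ := clp 0 1 x - 1 / 2

lemma pp_abs (x : ℝ) : |pp x| ≤ 1 / 2 := by
  have := clp_mem zero_le_one x
  rw [pp, abs_le]; constructor <;> linarith [this.1, this.2]

lemma continuous_pp : Continuous pp := (continuous_clp 0 1).sub continuous_const

def FF (m x : ℝ) : ℝ := x + m * (x ^ 2 - x) / 2

lemma FF_sub (m x y : ℝ) : FF m x - FF m y = (x - y) * (1 + m * (x + y - 1) / 2) := by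
  unfold FF; ring

lemma FF_mem {m x : ℝ} (hm : m ∈ Icc (-1 : ℝ) 1) (hx : x ∈ Icc (0 : ℝ) 1) : FF m x ∈ Icc (0 : ℝ) 1 := by
  have h1 : 0 ≤ x * (1 - x) := mul_nonneg hx.1 (sub_nonneg.2 hx.2)
  unfold FF
  constructor <;> nlinarith [hm.1, hm.2, hx.1, hx.2]

lemma one_add_ge {m p : ℝ} (hm : m ∈ Icc (-1 : ℝ) 1) (hp : |p| ≤ 1 / 2) : 1 / 2 ≤ 1 + m * p := by
  have : |m * p| ≤ 1 * (1 / 2) := by
    rw [abs_mul]; gcongr; exact abs_le.2 hm
  linarith [(abs_le.1 this).1]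

lemma exists_Q : ∃ Z : ℝ → ℝ → ℝ, Continuous (Function.uncurry Z) ∧ (∀ a y, Z a y ∈ Icc (0 : ℝ) 1) ∧
      (∀ a ∈ Icc (-1 : ℝ) 1, ∀ x ∈ Icc (0 : ℝ) 1, FF a x ∈ Icc (0 : ℝ) 1 → Z a (FF a x) = x) ∧
      ∀ a a' y y', 1 / 2 * |Z a y - Z a' y'| ≤ |a - a'| + |y - y'| := by
  refine exists_inv FF (by norm_num) zero_le_one (fun a _ => by unfold FF; fun_prop)
    (fun a _ => by simp [FF]) (fun a ha x hx y hy => ?_) fun a a' x hx => ?_
  · rw [FF_sub, abs_mul, mul_comm]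
    gcongr
    have := one_add_ge ha (p := (x + y - 1) / 2)
      (abs_le.2 ⟨by linarith [hx.1, hy.1], by linarith [hx.2, hy.2]⟩)
    rw [mul_div_assoc]
    exact this.trans (le_abs_self _)
  · have : FF a x - FF a' x = (a - a') * ((x ^ 2 - x) / 2) := by unfold FF; ring
    rw [this, abs_mul]
    apply mul_le_of_le_one_right (abs_nonneg _)
    rw [abs_le]; constructor <;> nlinarith [hx.1, hx.2]

def QQ : ℝ → ℝ → ℝ := exists_Q.choose

def GG (m x : ℝ) : ℝ := pp x / (1 + m * pp x)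

def gg (m v : ℝ) : ℝ := GG m (QQ m v)

lemma gg_FF {m x : ℝ} (hm : m ∈ Icc (-1 : ℝ) 1) (hx : x ∈ Icc (0 : ℝ) 1) :
    gg m (FF m x) = GG m x := by
  rw [gg, QQ, exists_Q.choose_spec.2.2.1 m hm x hx (FF_mem hm hx)]

lemma meas_gg : Measurable (Function.uncurry gg) := by
  have h : Measurable fun z : ℝ × ℝ => pp (QQ z.1 z.2) :=
    (continuous_pp.comp exists_Q.choose_spec.1).measurable
  exact h.div ((measurable_fst.mul h).const_add 1)

lemma gg_abs {m : ℝ} (hm : m ∈ Icc (-1 : ℝ) 1) (v : ℝ) : |gg m v| ≤ 1 := by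
  have h1 := pp_abs (QQ m v)
  have h2 := one_add_ge hm h1
  rw [gg, GG, abs_div, abs_of_pos (by linarith : 0 < 1 + m * pp (QQ m v)), div_le_one (by linarith)]
  linarith

lemma gg_lip {m m' : ℝ} (hm : m ∈ Icc (-1 : ℝ) 1) (hm' : m' ∈ Icc (-1 : ℝ) 1) (v : ℝ) :
    |gg m v - gg m' v| ≤ 9 * |m - m'| := by
  have h1 := pp_abs (QQ m v)
  have h1' := pp_abs (QQ m' v)
  have h2 := one_add_ge hm h1
  have h2' := one_add_ge hm' h1'
  have h3 := exists_Q.choose_spec.2.2.2 m m' v v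
  have h4 : |pp (QQ m v) - pp (QQ m' v)| ≤ 2 * |m - m'| := by
    have := clp_lip 0 1 (QQ m v) (QQ m' v)
    rw [sub_self, abs_zero] at h3
    unfold pp
    rw [sub_sub_sub_cancel_right]
    unfold QQ at this ⊢
    linarith
  obtain ⟨p, hp⟩ : ∃ p, p = pp (QQ m v) := ⟨_, rfl⟩
  obtain ⟨q, hq⟩ : ∃ q, q = pp (QQ m' v) := ⟨_, rfl⟩
  unfold gg GG
  rw [← hp] at h1 h2 h4 ⊢
  rw [← hq] at h1' h2' h4 ⊢
  have e : p / (1 + m * p) - q / (1 + m' * q) =
      ((p - q) - p * q * (m - m')) / ((1 + m * p) * (1 + m' * q)) := by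
    rw [div_sub_div _ _ (by linarith) (by linarith)]
    congr 1; ring
  have h5 : 1 / 4 ≤ (1 + m * p) * (1 + m' * q) := by nlinarith
  rw [e, abs_div, abs_of_pos (by linarith : 0 < (1 + m * p) * (1 + m' * q)),
    div_le_iff₀ (by linarith)]
  have h6 : |p * q * (m - m')| ≤ 1 / 2 * (1 / 2) * |m - m'| := by
    rw [abs_mul, abs_mul]; gcongr
  have h7 := abs_sub (p - q) (p * q * (m - m'))
  nlinarith [abs_nonneg (m - m')]

lemma FF_image {m : ℝ} (hm : m ∈ Icc (-1 : ℝ) 1) : FF m '' Ioc 0 1 = Ioc 0 1 := by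
  apply Subset.antisymm
  · rintro _ ⟨x, hx, rfl⟩
    refine ⟨?_, (FF_mem hm ⟨hx.1.le, hx.2⟩).2⟩
    have := FF_sub m x 0
    have h2 := one_add_ge hm (p := (x + 0 - 1) / 2)
      (abs_le.2 ⟨by linarith [hx.1], by linarith [hx.2]⟩)
    rw [← mul_div_assoc] at h2
    have h3 : FF m 0 = 0 := by simp [FF]
    nlinarith [hx.1]
  · have := intermediate_value_Ioc (f := FF m) zero_le_one (by unfold FF; fun_prop)
    simpa [FF] using this

lemma FF_inj {m : ℝ} (hm : m ∈ Icc (-1 : ℝ) 1) : InjOn (FF m) (Ioc 0 1) := by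
  intro x hx y hy h
  have := FF_sub m x y
  have h2 := one_add_ge hm (p := (x + y - 1) / 2)
    (abs_le.2 ⟨by linarith [hx.1, hy.1], by linarith [hx.2, hy.2]⟩)
  rw [← mul_div_assoc] at h2
  rw [h, sub_self, eq_comm, mul_eq_zero] at this
  rcases this with h | h <;> linarith

lemma FF_deriv (m x : ℝ) : HasDerivAt (FF m) (1 + m * (x - 1 / 2)) x := by
  have := (hasDerivAt_id x).fun_add
    ((((hasDerivAt_pow 2 x).fun_sub (hasDerivAt_id x)).const_mul m).div_const 2)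
  refine this.congr_deriv ?_
  simp; ring

lemma change_FF {m : ℝ} (hm : m ∈ Icc (-1 : ℝ) 1) (ψ : ℝ → ℝ≥0∞) :
    ∫⁻ x, ENNReal.ofReal (1 + m * pp x) * ψ (FF m x) ∂lam = ∫⁻ v, ψ v ∂lam := by
  have := lintegral_image_eq_lintegral_abs_deriv_mul (s := Ioc (0 : ℝ) 1) (f := FF m)
    measurableSet_Ioc (fun x _ => (FF_deriv m x).hasDerivWithinAt) (FF_inj hm) ψ
  rw [FF_image hm] at this
  unfold lam
  rw [this]
  refine setLIntegral_congr_fun measurableSet_Ioc fun x hx => ?_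
  have h1 : pp x = x - 1 / 2 := by rw [pp, clp_eq ⟨hx.1.le, hx.2⟩]
  have h2 := one_add_ge hm (pp_abs x)
  simp only [← h1, abs_of_pos (by linarith : 0 < 1 + m * pp x)]

lemma int_one {m : ℝ} (hm : m ∈ Icc (-1 : ℝ) 1) :
    ∫⁻ x, ENNReal.ofReal (1 + m * pp x) ∂lam = 1 := by
  simpa using change_FF hm fun _ => 1

lemma int_gg {m : ℝ} (hm : m ∈ Icc (-1 : ℝ) 1) : ∫ v, gg m v ∂lam = 0 := by
  have := integral_image_eq_integral_abs_deriv_smul (s := Ioc (0 : ℝ) 1) (f := FF m)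
    measurableSet_Ioc (fun x _ => (FF_deriv m x).hasDerivWithinAt) (FF_inj hm) (gg m)
  rw [FF_image hm] at this
  unfold lam
  rw [this, setIntegral_congr_fun measurableSet_Ioc (g := fun x => x - 1 / 2) fun x hx => ?_]
  · rw [← intervalIntegral.integral_of_le zero_le_one,
      intervalIntegral.integral_sub (by simp) (by simp)]
    simp
  · have h1 : pp x = x - 1 / 2 := by rw [pp, clp_eq ⟨hx.1.le, hx.2⟩]
    have h2 := one_add_ge hm (pp_abs x)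
    simp only [← h1, abs_of_pos (by linarith : 0 < 1 + m * pp x), gg_FF hm ⟨hx.1.le, hx.2⟩, GG,
      smul_eq_mul]
    field_simp

lemma int_hell : ∫⁻ x, ENNReal.ofReal (1 - pp x ^ 2 / 2) ∂lam = ENNReal.ofReal (23 / 24) := by
  unfold lam
  rw [setLIntegral_congr_fun measurableSet_Ioc
    (g := fun x => ENNReal.ofReal (1 - (x - 1 / 2) ^ 2 / 2))
    fun x hx => by simp only [pp, clp_eq ⟨hx.1.le, hx.2⟩],
    ← ofReal_integral_eq_lintegral_ofReal
      ((Continuous.intervalIntegrable (by fun_prop) 0 1).1)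
      ((ae_restrict_mem measurableSet_Ioc).mono fun x hx => by
        simp only [Pi.zero_apply]; nlinarith [hx.1, hx.2]),
    ← intervalIntegral.integral_of_le zero_le_one]
  congr 1
  have : ∀ x ∈ uIcc (0 : ℝ) 1, HasDerivAt (fun x : ℝ => x - (x - 1 / 2) ^ 3 / 6)
      (1 - (x - 1 / 2) ^ 2 / 2) x := fun x _ => by
    have := (hasDerivAt_id x).fun_sub
      ((((hasDerivAt_id x).sub_const (1 / 2)).fun_pow 3).div_const 6)
    refine this.congr_deriv ?_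
    simp; ring
  rw [intervalIntegral.integral_eq_sub_of_hasDerivAt this
    (Continuous.intervalIntegrable (by fun_prop) 0 1)]
  norm_num

lemma int_sq {h : ℝ → ℝ} (hm : Measurable h) {B : ℝ} (hB : ∀ v, |h v| ≤ B)
    (h0 : ∫ v, h v ∂lam = 0) (a : ℝ) :
    ∫⁻ v, ENNReal.ofReal ((h v + a) ^ 2) ∂lam ≤ ENNReal.ofReal (B ^ 2) + ENNReal.ofReal (a ^ 2) := by
  have hi : Integrable h lam := Integrable.of_bound hm.aestronglyMeasurable B
    (Eventually.of_forall hB)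
  have hB2 : ∀ v, h v ^ 2 ≤ B ^ 2 := fun v => by
    rw [← sq_abs]; gcongr; exact hB v
  have hi2 : Integrable (fun v => B ^ 2 + a ^ 2 + 2 * a * h v) lam :=
    (integrable_const _).add (hi.const_mul _)
  rw [← ENNReal.ofReal_add (sq_nonneg _) (sq_nonneg _)]
  calc _ ≤ ∫⁻ v, ENNReal.ofReal (B ^ 2 + a ^ 2 + 2 * a * h v) ∂lam :=
        lintegral_mono fun v => ENNReal.ofReal_le_ofReal (by nlinarith [hB2 v])
    _ = _ := by
        rw [← ofReal_integral_eq_lintegral_ofReal hi2 (Eventually.of_forall fun v => by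
          simp only [Pi.zero_apply]; nlinarith [hB2 v, sq_nonneg (h v + a)]),
          integral_add (integrable_const _) (hi.const_mul _), integral_const_mul, h0]
        simp

/-! ### the regression coefficient -/

def al (θ z : ℝ) : ℝ := z * (1 - θ ^ 2) / (1 - θ ^ 2 * z ^ 2)
def rr (θ z : ℝ) : ℝ := θ * (1 - z ^ 2) / (1 - θ ^ 2 * z ^ 2)
def tau (t z : ℝ) : ℝ := (z + t) / (1 + t * z)

section reg
variable {θ : ℝ} (h0 : 0 ≤ θ) (h1 : θ < 1)
include h0 h1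

lemma den_pos {z : ℝ} (hz : z ∈ Icc (-1 : ℝ) 1) : 0 < 1 - θ ^ 2 * z ^ 2 := by
  have : z ^ 2 ≤ 1 := by nlinarith [hz.1, hz.2]
  nlinarith [sq_nonneg θ]

lemma rr_mem {z : ℝ} (hz : z ∈ Icc (-1 : ℝ) 1) : |rr θ z| ≤ θ := by
  have h2 := den_pos h0 h1 hz
  have h3 : z ^ 2 ≤ 1 := by nlinarith [hz.1, hz.2]
  rw [rr, abs_of_nonneg (div_nonneg (mul_nonneg h0 (by linarith)) h2.le), div_le_iff₀ h2]
  have : θ ^ 2 ≤ 1 := by nlinarith
  gcongr
  nlinarith [sq_nonneg z]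

lemma tau_den {z : ℝ} (hz : z ∈ Icc (-1 : ℝ) 1) :
    1 - θ ≤ 1 + θ * z ∧ 1 - θ ≤ 1 + -θ * z ∧ 1 + θ * z ≤ 2 ∧ 1 + -θ * z ≤ 2 := by
  refine ⟨?_, ?_, ?_, ?_⟩ <;> nlinarith [hz.1, hz.2]

lemma al_rr {z : ℝ} (hz : z ∈ Icc (-1 : ℝ) 1) (a : ℝ) :
    al θ z + rr θ z * a = (1 + a) / 2 * tau θ z + (1 - a) / 2 * tau (-θ) z := by
  have h2 := den_pos h0 h1 hz
  obtain ⟨a1, a2, -, -⟩ := tau_den h0 h1 hz
  have e : 1 - θ ^ 2 * z ^ 2 = (1 + θ * z) * (1 + -θ * z) := by ring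
  have b1 : 1 + θ * z ≠ 0 := by linarith
  have b2 : 1 + -θ * z ≠ 0 := by linarith
  unfold al rr tau
  rw [e, mul_div_assoc', mul_div_assoc', div_add_div _ _ b1 b2, div_mul_eq_mul_div, ← add_div]
  congr 1
  ring

lemma tau_sub {z z' t : ℝ} (hz : z ∈ Icc (-1 : ℝ) 1) (hz' : z' ∈ Icc (-1 : ℝ) 1)
    (ht : t = θ ∨ t = -θ) : ∃ c, (1 - θ ^ 2) / 4 ≤ c ∧ c ≤ 1 / (1 - θ) ^ 2 ∧
      tau t z - tau t z' = c * (z - z') := by
  obtain ⟨a1, a2, a3, a4⟩ := tau_den h0 h1 hz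
  obtain ⟨b1, b2, b3, b4⟩ := tau_den h0 h1 hz'
  have c1 : 1 - θ ≤ 1 + t * z := by rcases ht with rfl | rfl <;> assumption
  have c2 : 1 - θ ≤ 1 + t * z' := by rcases ht with rfl | rfl <;> assumption
  have c3 : 1 + t * z ≤ 2 := by rcases ht with rfl | rfl <;> assumption
  have c4 : 1 + t * z' ≤ 2 := by rcases ht with rfl | rfl <;> assumption
  have c5 : t ^ 2 = θ ^ 2 := by rcases ht with rfl | rfl <;> ring
  have d0 : 0 < 1 - θ := by linarith
  have d1 : 0 < 1 + t * z := by linarith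
  have d2 : 0 < 1 + t * z' := by linarith
  have d3 : 0 ≤ 1 - θ ^ 2 := by nlinarith
  refine ⟨(1 - θ ^ 2) / ((1 + t * z) * (1 + t * z')), ?_, ?_, ?_⟩
  · gcongr; nlinarith
  · rw [sq (1 - θ)]
    gcongr
    nlinarith
  · unfold tau
    rw [← c5, div_sub_div _ _ d1.ne' d2.ne', div_mul_eq_mul_div]
    congr 1
    ring

lemma exists_Z : ∃ Z : ℝ → ℝ → ℝ, Continuous (Function.uncurry Z) ∧
      (∀ a y, Z a y ∈ Icc (-1 : ℝ) 1) ∧
      (∀ a ∈ Icc (-1 : ℝ) 1, ∀ x ∈ Icc (-1 : ℝ) 1, al θ x + rr θ x * a ∈ Icc (-1 : ℝ) 1 →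
        Z a (al θ x + rr θ x * a) = x) ∧
      ∀ a a' y y', (1 - θ ^ 2) / 4 * |Z a y - Z a' y'| ≤ |a - a'| + |y - y'| := by
  have d3 : 0 < 1 - θ ^ 2 := by nlinarith
  refine exists_inv (fun a x => al θ x + rr θ x * a) (by positivity) (by norm_num)
    (fun a _ => ?_) (fun a _ => ?_) (fun a ha x hx y hy => ?_) fun a a' x hx => ?_
  · unfold al rr
    exact ((by fun_prop : ContinuousOn _ _).div (by fun_prop)
      fun x hx => (den_pos h0 h1 hx).ne').add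
      (((by fun_prop : ContinuousOn _ _).div (by fun_prop)
      fun x hx => (den_pos h0 h1 hx).ne').mul continuousOn_const)
  · simp only [al, rr]
    constructor
    · rw [show 1 - θ ^ 2 * (-1) ^ 2 = 1 - θ ^ 2 by ring, mul_div_assoc, div_self d3.ne']; simp
    · rw [show 1 - θ ^ 2 * 1 ^ 2 = 1 - θ ^ 2 by ring, mul_div_assoc, div_self d3.ne']; simp
  · rw [al_rr h0 h1 hx, al_rr h0 h1 hy]
    obtain ⟨c, c1, -, c3⟩ := tau_sub h0 h1 hx hy (Or.inl rfl)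
    obtain ⟨c', c1', -, c3'⟩ := tau_sub h0 h1 hx hy (Or.inr rfl)
    have : (1 + a) / 2 * tau θ x + (1 - a) / 2 * tau (-θ) x -
        ((1 + a) / 2 * tau θ y + (1 - a) / 2 * tau (-θ) y) =
        ((1 + a) / 2 * c + (1 - a) / 2 * c') * (x - y) := by
      linear_combination (1 + a) / 2 * c3 + (1 - a) / 2 * c3'
    rw [this, abs_mul]
    gcongr
    refine le_trans ?_ (le_abs_self _)
    nlinarith [ha.1, ha.2]
  · have : al θ x + rr θ x * a - (al θ x + rr θ x * a') = rr θ x * (a - a') := by ring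
    rw [this, abs_mul]
    exact mul_le_of_le_one_left (abs_nonneg _) ((rr_mem h0 h1 hx).trans h1.le)

lemma rr_lip {z z' : ℝ} (hz : z ∈ Icc (-1 : ℝ) 1) (hz' : z' ∈ Icc (-1 : ℝ) 1) :
    |rr θ z - rr θ z'| ≤ 1 / (1 - θ) ^ 2 * |z - z'| := by
  have e : ∀ z ∈ Icc (-1 : ℝ) 1, rr θ z = (tau θ z - tau (-θ) z) / 2 := fun z hz => by
    linear_combination al_rr h0 h1 hz 1 - al_rr h0 h1 hz 0
  obtain ⟨c, c1, c2, c3⟩ := tau_sub h0 h1 hz hz' (Or.inl rfl)
  obtain ⟨c', c1', c2', c3'⟩ := tau_sub h0 h1 hz hz' (Or.inr rfl)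
  have d3 : 0 < 1 - θ ^ 2 := by nlinarith
  have : rr θ z - rr θ z' = (c - c') / 2 * (z - z') := by
    rw [e z hz, e z' hz']; linear_combination c3 / 2 - c3' / 2
  rw [this, abs_mul]
  gcongr
  rw [abs_le]; constructor <;> linarith

lemma exists_rf : ∃ (R : ℝ → ℝ → ℝ) (L : ℝ), 0 ≤ L ∧ Measurable (Function.uncurry R) ∧
    (∀ a y, |R a y| ≤ θ) ∧
    (∀ a ∈ Icc (-1 : ℝ) 1, ∀ x ∈ Icc (-1 : ℝ) 1, al θ x + rr θ x * a ∈ Icc (-1 : ℝ) 1 →
      R a (al θ x + rr θ x * a) = rr θ x) ∧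
    ∀ a a' y y', |R a y - R a' y'| ≤ L * (|a - a'| + |y - y'|) := by
  obtain ⟨Z, z1, z2, z3, z4⟩ := exists_Z h0 h1
  have d3 : 0 < 1 - θ ^ 2 := by nlinarith
  refine ⟨fun a y => rr θ (Z a y), 1 / (1 - θ) ^ 2 * (4 / (1 - θ ^ 2)), by positivity, ?_,
    fun a y => rr_mem h0 h1 (z2 a y), fun a ha x hx h => by simp only [z3 a ha x hx h],
    fun a a' y y' => ?_⟩
  · have := z1.measurable
    unfold rr
    exact ((this.pow_const 2).const_sub 1 |>.const_mul θ).div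
      (((this.pow_const 2).const_mul _).const_sub 1)
  · refine (rr_lip h0 h1 (z2 a y) (z2 a' y')).trans ?_
    rw [mul_assoc]
    gcongr
    have := z4 a a' y y'
    rw [div_mul_eq_mul_div, le_div_iff₀ d3]
    linarith

end reg

end

end Vale.Agent.P161
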