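import Vale.Agent.P161.Scal
import Vale.Agent.P161.Defs

open Finset SimpleGraph
open scoped Classical

namespace Vale.Agent.P161

noncomputable section

variable {V : Type*} {G : SimpleGraph V}

section paths
variable (hT : G.IsTree)

def pth (u v : V) : G.Walk u v := (hT.existsUnique_path u v).choose

lemma pth_path (u v : V) : (pth hT u v).IsPath := (hT.existsUnique_path u v).choose_spec.1

lemma pth_eq {u v : V} {p : G.Walk u v} (hp : p.IsPath) : p = pth hT u v :=
  (hT.existsUnique_path u v).choose_spec.2 p hp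

def dd (u v : V) : ℕ := (pth hT u v).length

lemma dd_le {u v : V} (p : G.Walk u v) : dd hT u v ≤ p.length := by
  rw [dd, ← pth_eq hT p.bypass_isPath]; exact p.length_bypass_le_length

lemma pth_supp {u v : V} (p : G.Walk u v) : (pth hT u v).support ⊆ p.support := by
  rw [← pth_eq hT p.bypass_isPath]; exact p.support_bypass_subset_support

lemma dd_tri (u v w : V) : dd hT u w ≤ dd hT u v + dd hT v w := by
  simpa [dd] using dd_le hT ((pth hT u v).append (pth hT v w))

lemma dd_supp {u v x : V} (hx : x ∈ (pth hT u v).support) : dd hT u x ≤ dd hT u v :=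
  (dd_le hT _).trans ((pth hT u v).length_takeUntil_le_length hx)

lemma dd_self (u : V) : dd hT u u = 0 := by simpa using dd_le hT (Walk.nil : G.Walk u u)

lemma dd_zero {u v : V} (h : dd hT u v = 0) : u = v := Walk.eq_of_length_eq_zero h

lemma dd_succ {u v : V} {n : ℕ} (h : dd hT u v = n + 1) : ∃ x, G.Adj x v ∧ dd hT u x = n := by
  have : ∀ {v u : V} (p : G.Walk v u), p.length = n + 1 →
      ∃ x, G.Adj x v ∧ ∃ q : G.Walk u x, q.length = n := by
    intro v u p hp
    cases p with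
    | nil => simp at hp
    | cons h p => exact ⟨_, h.symm, p.reverse, by simpa using hp⟩
  obtain ⟨x, h1, q, hq⟩ := this (pth hT u v).reverse (by simpa [dd] using h)
  refine ⟨x, h1, le_antisymm (hq ▸ dd_le hT q) ?_⟩
  have := dd_le hT ((pth hT u x).concat h1)
  simp only [Walk.length_concat] at this
  unfold dd at *
  omega

lemma pth_map (g : G ≃g G) (u v : V) : (pth hT u v).map g.toHom = pth hT (g u) (g v) :=
  pth_eq hT ((pth_path hT u v).map g.injective)

lemma dd_map (g : G ≃g G) (u v : V) : dd hT (g u) (g v) = dd hT u v := by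
  rw [dd, ← pth_map, Walk.length_map, dd]

variable {d : ℕ} (hd : 3 ≤ d) (hN : ∀ v, (G.neighborSet v).ncard = d)
include hd hN

lemma nb_fin (v : V) : (G.neighborSet v).Finite := Set.finite_of_ncard_ne_zero (by rw [hN]; omega)

lemma sph_fin (o : V) (n : ℕ) : {v | dd hT o v = n}.Finite := by
  induction n with
  | zero => exact (Set.finite_singleton o).subset fun v hv => (dd_zero hT hv).symm
  | succ n ih =>
    refine (ih.biUnion fun v _ => nb_fin hd hN v).subset fun v hv => ?_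
    obtain ⟨x, h1, h2⟩ := dd_succ hT hv
    exact Set.mem_biUnion (x := x) h2 h1

lemma ball_fin (o : V) (n : ℕ) : {v | dd hT o v ≤ n}.Finite :=
  ((Set.finite_Iic n).biUnion fun k _ => sph_fin hT hd hN o k).subset fun v hv =>
    Set.mem_biUnion (x := dd hT o v) hv rfl

lemma sph_card (o : V) (n : ℕ) : (sph_fin hT hd hN o n).toFinset.card ≤ 2 * (d - 1) ^ n := by
  induction n with
  | zero =>
    refine (card_le_card (t := {o}) fun v hv => ?_).trans (by simp)
    simp only [Set.Finite.mem_toFinset, Set.mem_ofPred_eq] at hv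
    simp [dd_zero hT hv]
  | succ n ih =>
    cases n with
    | zero =>
      refine (card_le_card (t := (nb_fin hd hN o).toFinset) fun v hv => ?_).trans ?_
      · simp only [Set.Finite.mem_toFinset, Set.mem_ofPred_eq] at hv ⊢
        obtain ⟨x, h1, h2⟩ := dd_succ hT hv
        rwa [← dd_zero hT h2] at h1
      · rw [← Set.ncard_eq_toFinset_card _ (nb_fin hd hN o), hN, zero_add, pow_one]; omega
    | succ n =>
      refine (card_le_card (t := (sph_fin hT hd hN o (n + 1)).toFinset.biUnion fun u =>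
        (nb_fin hd hN u).toFinset.filter fun v => dd hT o v ≠ n) fun v hv => ?_).trans ?_
      · simp only [Set.Finite.mem_toFinset, Set.mem_ofPred_eq, mem_biUnion, mem_filter] at hv ⊢
        obtain ⟨x, h1, h2⟩ := dd_succ hT hv
        exact ⟨x, h2, h1, by omega⟩
      · refine (card_biUnion_le_card_mul _ _ (d - 1) fun u hu => ?_).trans ?_
        · simp only [Set.Finite.mem_toFinset, Set.mem_ofPred_eq] at hu
          obtain ⟨x, h1, h2⟩ := dd_succ hT hu
          refine (card_le_card (t := (nb_fin hd hN u).toFinset.erase x) fun v hv => ?_).trans ?_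
          · simp only [mem_filter, mem_erase] at hv ⊢
            exact ⟨by rintro rfl; exact hv.2 h2, hv.1⟩
          · rw [card_erase_of_mem (by simpa using h1.symm),
              ← Set.ncard_eq_toFinset_card _ (nb_fin hd hN u), hN]
        · rw [pow_succ _ (n + 1), ← mul_assoc]; gcongr

lemma sum_dd (o : V) (X : Finset V) {g : ℕ → ℝ} (hg : ∀ n, 0 ≤ g n)
    (hs : Summable fun n => (2 * ((d : ℝ) - 1) ^ n) * g n) :
    ∑ v ∈ X, g (dd hT o v) ≤ ∑' n, (2 * ((d : ℝ) - 1) ^ n) * g n := by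
  have h1 : (1 : ℝ) ≤ d := by exact_mod_cast (by omega : 1 ≤ d)
  rw [sum_comp g]
  refine le_trans (sum_le_sum fun n _ => ?_) (hs.sum_le_tsum _ fun n _ =>
    mul_nonneg (mul_nonneg zero_le_two (pow_nonneg (by linarith) _)) (hg n))
  rw [nsmul_eq_mul]
  refine mul_le_mul_of_nonneg_right ?_ (hg n)
  have := (card_le_card (s := X.filter fun a => dd hT o a = n)
    (t := (sph_fin hT hd hN o n).toFinset) fun v hv => by
      simpa using (mem_filter.1 hv).2).trans (sph_card hT hd hN o n)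
  have h2 : ((d - 1 : ℕ) : ℝ) = d - 1 := by rw [Nat.cast_sub (by omega)]; simp
  rw [← h2]
  exact_mod_cast this

end paths

/-! ### weights -/

def sg (P : Finset V) (v : V) : ℝ := if v ∈ P then 1 else -1

lemma sg_sq (P : Finset V) (v : V) : sg P v * sg P v = 1 := by unfold sg; split_ifs <;> norm_num

lemma sg_mem (P : Finset V) (v : V) : sg P v ∈ Set.Icc (-1 : ℝ) 1 := by
  unfold sg; split_ifs <;> norm_num

def ew (θ : ℝ) (P : Finset V) (e : Sym2 V) : ℝ := (1 + θ * (e.map (sg P)).mul) / 2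

def ED (G : SimpleGraph V) (D : Finset V) : Finset (Sym2 V) := D.sym2.filter (· ∈ G.edgeSet)

def wt (G : SimpleGraph V) (θ : ℝ) (D P : Finset V) : ℝ := 1 / 2 * ∏ e ∈ ED G D, ew θ P e

lemma ew_pos {θ : ℝ} (h0 : 0 ≤ θ) (h1 : θ < 1) (P : Finset V) (e : Sym2 V) : 0 < ew θ P e := by
  induction e with
  | h x y =>
  simp only [ew, Sym2.map_mk, Sym2.mul_mk, sg]
  split_ifs <;> linarith

lemma wt_pos {θ : ℝ} (h0 : 0 ≤ θ) (h1 : θ < 1) (D P : Finset V) : 0 < wt G θ D P :=
  mul_pos (by norm_num) (prod_pos fun e _ => ew_pos h0 h1 P e)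

def Dep (A : Set V) (F : Finset V → ℝ) : Prop :=
  ∀ P Q : Finset V, (∀ x ∈ A, (x ∈ P ↔ x ∈ Q)) → F P = F Q

lemma dep_sg {A : Set V} {v : V} (h : v ∈ A) : Dep A fun P => sg P v := fun P Q hPQ => by
  simp only [sg, hPQ v h]

lemma Dep.mul {A : Set V} {F H : Finset V → ℝ} (h1 : Dep A F) (h2 : Dep A H) :
    Dep A fun P => F P * H P := fun P Q h => by simp only [h1 P Q h, h2 P Q h]

lemma dep_const (A : Set V) (c : ℝ) : Dep A fun _ => c := fun _ _ _ => rfl

lemma dep_prod {A : Set V} {κ : Type*} {s : Finset κ} {F : κ → Finset V → ℝ}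
    (h : ∀ i ∈ s, Dep A (F i)) : Dep A fun P => ∏ i ∈ s, F i P := fun P Q hPQ =>
  prod_congr rfl fun i hi => h i hi P Q hPQ

lemma dep_ew {A : Set V} {e : Sym2 V} (h : ∀ x ∈ e, x ∈ A) (θ : ℝ) : Dep A fun P => ew θ P e := by
  induction e with
  | h x y =>
  intro P Q hPQ
  simp only [ew, Sym2.map_mk, sg, hPQ x (h x (by simp)), hPQ y (h y (by simp))]

lemma dep_wt (θ : ℝ) (D : Finset V) : Dep D (wt G θ D) :=
  (dep_const _ _).mul (dep_prod fun _ he => dep_ew (mem_sym2_iff.1 (mem_filter.1 he).1) θ)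

def Conn (G : SimpleGraph V) (D : Finset V) : Prop :=
  ∀ u ∈ D, ∀ v ∈ D, ∃ p : G.Walk u v, ∀ x ∈ p.support, x ∈ D

lemma Conn.pth (hT : G.IsTree) {D : Finset V} (h : Conn G D) {u v : V} (hu : u ∈ D) (hv : v ∈ D) :
    ∀ x ∈ (pth hT u v).support, x ∈ D := by
  obtain ⟨p, hp⟩ := h u hu v hv
  exact fun x hx => hp x (pth_supp hT p hx)

lemma conn_single (o : V) : Conn G {o} := by
  intro u hu v hv
  rw [mem_singleton] at hu hv
  subst hu hv
  exact ⟨Walk.nil, by simp⟩

lemma Conn.insert {D : Finset V} (h : Conn G D) {x y : V} (hy : y ∈ D) (hxy : G.Adj x y) :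
    Conn G (insert x D) := by
  have h1 : ∀ u ∈ Insert.insert x D, ∃ p : G.Walk y u, ∀ z ∈ p.support, z ∈ Insert.insert x D := by
    intro u hu
    rcases mem_insert.1 hu with rfl | hu
    · exact ⟨Walk.cons hxy.symm Walk.nil, by simp [hy]⟩
    · obtain ⟨p, hp⟩ := h y hy u hu
      exact ⟨p, fun z hz => mem_insert_of_mem (hp z hz)⟩
  intro u hu v hv
  obtain ⟨p, hp⟩ := h1 u hu
  obtain ⟨q, hq⟩ := h1 v hv
  refine ⟨p.reverse.append q, fun z hz => ?_⟩
  rw [Walk.mem_support_append_iff, Walk.support_reverse, List.mem_reverse] at hz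
  exact hz.elim (hp z) (hq z)

lemma ED_insert (hT : G.IsTree) {D : Finset V} (h : Conn G D) {x y : V} (hx : x ∉ D) (hy : y ∈ D)
    (hxy : G.Adj x y) : ED G (insert x D) = insert s(x, y) (ED G D) := by
  have h1 : ∀ z ∈ D, G.Adj x z → z = y := by
    intro z hz hxz
    have hp : (Walk.cons hxz (pth hT z y)).IsPath :=
      (pth_path hT z y).cons fun hm => hx (h.pth hT hz hy x hm)
    have hq : (Walk.cons hxy Walk.nil).IsPath := by simp [hxy.ne]
    have := congrArg Walk.length ((pth_eq hT hp).trans (pth_eq hT hq).symm)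
    simp only [Walk.length_cons, Walk.length_nil, zero_add, add_eq_right] at this
    exact Walk.eq_of_length_eq_zero this
  ext e
  induction e with
  | h u v =>
  simp only [ED, mem_filter, mk_mem_sym2_iff, mem_insert, mem_edgeSet, Sym2.eq_iff]
  constructor
  · rintro ⟨⟨rfl | hu, rfl | hv⟩, ha⟩
    · exact absurd rfl ha.ne
    · exact Or.inl (Or.inl ⟨rfl, h1 _ hv ha⟩)
    · exact Or.inl (Or.inr ⟨h1 _ hu ha.symm, rfl⟩)
    · exact Or.inr ⟨⟨hu, hv⟩, ha⟩
  · rintro ((⟨rfl, rfl⟩ | ⟨rfl, rfl⟩) | ⟨⟨hu, hv⟩, ha⟩)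
    · exact ⟨⟨Or.inl rfl, Or.inr hy⟩, hxy⟩
    · exact ⟨⟨Or.inr hy, Or.inl rfl⟩, hxy.symm⟩
    · exact ⟨⟨Or.inr hu, Or.inr hv⟩, ha⟩

lemma marg (hT : G.IsTree) (θ : ℝ) {D : Finset V} (hD : Conn G D) {D0 : Finset V} (h0 : Conn G D0)
    (hne : D0.Nonempty) (hsub : D0 ⊆ D) {f : Finset V → ℝ} (hf : Dep D0 f) :
    ∑ P ∈ D.powerset, wt G θ D P * f P = ∑ P ∈ D0.powerset, wt G θ D0 P * f P := by
  obtain ⟨n, hn⟩ : ∃ n, n = (D \ D0).card := ⟨_, rfl⟩
  induction n generalizing D0 with
  | zero =>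
    rw [Subset.antisymm hsub (sdiff_eq_empty_iff_subset.1 (card_eq_zero.1 hn.symm))]
  | succ n ih =>
    obtain ⟨z, hz⟩ : (D \ D0).Nonempty := card_pos.1 (by omega)
    obtain ⟨o, ho⟩ := hne
    obtain ⟨p, hp⟩ := hD o (hsub ho) z (mem_sdiff.1 hz).1
    obtain ⟨e, he, hy, hx⟩ := p.exists_boundary_dart (D0 : Set V) ho (mem_sdiff.1 hz).2
    have hxD : e.snd ∈ D := hp _ (p.dart_snd_mem_support_of_mem_darts he)
    have hadj := e.adj.symm
    obtain ⟨x, hx'⟩ : ∃ x, x = e.snd := ⟨_, rfl⟩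
    obtain ⟨y, hy'⟩ : ∃ y, y = e.fst := ⟨_, rfl⟩
    rw [← hx'] at hx hxD hadj
    rw [← hy'] at hy hadj
    rw [mem_coe] at hx hy
    rw [ih (h0.insert hy hadj) (insert_nonempty _ _) (insert_subset hxD hsub)
      (fun P Q h => hf P Q fun z hz => h z (mem_insert_of_mem hz))
      (by rw [sdiff_insert, card_erase_of_mem (mem_sdiff.2 ⟨hxD, hx⟩)]; omega),
      sum_powerset_insert hx, ← sum_add_distrib]
    refine sum_congr rfl fun P hP => ?_
    have hxP : x ∉ P := fun h => hx (mem_powerset.1 hP h)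
    have hyx : y ≠ x := hadj.ne.symm
    have e1 : ∀ z ∈ (D0 : Set V), z ∈ Insert.insert x P ↔ z ∈ P := fun z hz => by
      rw [mem_insert]
      exact ⟨fun h => h.elim (fun h => absurd (h ▸ hz) hx) id, Or.inr⟩
    have e2 : ∀ Q, wt G θ (Insert.insert x D0) Q = ew θ Q s(x, y) * wt G θ D0 Q := fun Q => by
      unfold wt
      rw [ED_insert hT h0 hx hy hadj, prod_insert (by simp [ED, hx])]
      ring
    rw [e2, e2, hf _ _ e1, dep_wt θ D0 _ _ e1]
    simp only [ew, Sym2.map_mk, Sym2.mul_mk, sg, hxP, mem_insert, hyx, true_or, false_or,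
      if_true, if_false]
    ring

lemma marg_one (hT : G.IsTree) (θ : ℝ) {D : Finset V} (hD : Conn G D) {o : V} (ho : o ∈ D)
    (f : ℝ → ℝ) : ∑ P ∈ D.powerset, wt G θ D P * f (sg P o) = (f 1 + f (-1)) / 2 := by
  rw [marg hT θ hD (conn_single o) (singleton_nonempty _) (by simpa using ho)
    (f := fun P => f (sg P o)) fun P Q h => by simp only [sg, h o (by simp)]]
  have : ED G {o} = ∅ := by simp [ED]
  rw [← insert_empty_eq, sum_powerset_insert (notMem_empty _)]
  simp [wt, this, sg]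
  ring

lemma mix (D : Finset V) {A : Set V} {F H : Finset V → ℝ} (hF : Dep A F) (hH : Dep Aᶜ H) :
    (∑ P ∈ D.powerset, F P) * ∑ P ∈ D.powerset, H P =
      2 ^ D.card * ∑ P ∈ D.powerset, F P * H P := by
  let mx : Finset V → Finset V → Finset V := fun P Q => P.filter (· ∈ A) ∪ Q.filter (· ∉ A)
  have h1 : ∀ P Q, mx (mx P Q) (mx Q P) = P := fun P Q => by
    ext x; by_cases hx : x ∈ A <;> simp [mx, hx]
  have h2 : ∀ z ∈ D.powerset ×ˢ D.powerset,
      (mx z.1 z.2, mx z.2 z.1) ∈ D.powerset ×ˢ D.powerset := fun z hz => by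
    simp only [mem_product, mem_powerset] at hz ⊢
    exact ⟨union_subset ((filter_subset _ _).trans hz.1) ((filter_subset _ _).trans hz.2),
      union_subset ((filter_subset _ _).trans hz.2) ((filter_subset _ _).trans hz.1)⟩
  rw [sum_mul_sum, ← sum_product', sum_nbij' (t := D.powerset ×ˢ D.powerset)
    (g := fun z => F z.1 * H z.1) (fun z => (mx z.1 z.2, mx z.2 z.1))
    (fun z => (mx z.1 z.2, mx z.2 z.1)) h2 h2 (fun z _ => by simp only [h1])
    (fun z _ => by simp only [h1]) fun z _ => ?_]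
  · rw [sum_product, mul_sum]
    simp
  · rw [hF z.1 (mx z.1 z.2) fun x hx => by simp [mx, hx],
      hH z.2 (mx z.1 z.2) fun x hx => by simp [mx, show x ∉ A from hx]]

end

end Vale.Agent.P161
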